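import Vale.Agent.Lib.P329.Closure

namespace Vale.Agent.Lib.P329

variable {α G : Type} [Group G]

open Classical in
/-- keep the elements of `S`, replace every other element `g` by its pure part `pur g` -/
noncomputable def act (pur : G → G) (S : Set G) (g : G) : G := if g ∈ S then g else pur g

/-- the value of a word under the morphism `x ↦ act pur S (φ x)` -/
noncomputable def val (pur : G → G) (φ : α → G) (S : Set G) (w : List α) : G :=
  (w.map fun x => act pur S (φ x)).prod

section

variable {pur : G → G} {φ : α → G}

lemma val_nil (S : Set G) : val pur φ S ([] : List α) = 1 := rfl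

lemma val_concat (S : Set G) (w : List α) (x : α) :
    val pur φ S (w ++ [x]) = val pur φ S w * act pur S (φ x) := by
  unfold val
  rw [List.map_append, List.prod_append]
  simp

lemma act_empty (g : G) : act pur ∅ g = pur g := by
  unfold act
  rw [if_neg (Set.notMem_empty g)]

lemma act_univ (g : G) : act pur Set.univ g = g := by
  unfold act
  rw [if_pos (Set.mem_univ g)]

lemma val_univ (w : List α) : val pur φ Set.univ w = (w.map φ).prod := by
  unfold val
  congr 1
  apply List.map_congr_left
  intro x _
  exact act_univ _

variable (N : Subgroup G) [N.Normal]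

lemma val_inv_mem (hpur : ∀ g, g * (pur g)⁻¹ ∈ N) (S : Set G) (w : List α) :
    (val pur φ ∅ w)⁻¹ * val pur φ S w ∈ N := by
  induction w using List.reverseRecOn with
  | nil => simp [val_nil, N.one_mem]
  | append_singleton w x ih =>
    rw [val_concat, val_concat, act_empty]
    set r := pur (φ x) with hr
    set lam := val pur φ ∅ w
    set B := val pur φ S w
    by_cases hS : φ x ∈ S
    · have h1 : act pur S (φ x) = φ x := by unfold act; rw [if_pos hS]
      rw [h1]
      have h2 : (lam * r)⁻¹ * (B * φ x) = r⁻¹ * ((lam⁻¹ * B) * (φ x * r⁻¹)) * (r⁻¹)⁻¹ := by group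
      rw [h2]
      exact Subgroup.Normal.conj_mem inferInstance _ (N.mul_mem ih (hpur _)) _
    · have h1 : act pur S (φ x) = r := by unfold act; rw [if_neg hS]
      rw [h1]
      have h2 : (lam * r)⁻¹ * (B * r) = r⁻¹ * (lam⁻¹ * B) * (r⁻¹)⁻¹ := by group
      rw [h2]
      exact Subgroup.Normal.conj_mem inferInstance _ ih _

lemma val_insert (hcomm : ∀ a ∈ N, ∀ b ∈ N, a * b = b * a) (hpur : ∀ g, g * (pur g)⁻¹ ∈ N)
    (T : Set G) (γ : G) (hγ : γ ∉ T) (w : List α) :
    val pur φ (insert γ T) w = val pur φ T w * (val pur φ ∅ w)⁻¹ * val pur φ {γ} w := by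
  induction w using List.reverseRecOn with
  | nil => simp [val_nil]
  | append_singleton w x ih =>
    rw [val_concat, val_concat, val_concat, val_concat, act_empty, ih]
    have hB := val_inv_mem (pur := pur) (φ := φ) N hpur {γ} w
    set r := pur (φ x) with hr
    set lam := val pur φ ∅ w
    set A := val pur φ T w
    set B := val pur φ {γ} w
    by_cases h1 : φ x = γ
    · have e1 : act pur (insert γ T) (φ x) = φ x := by
        unfold act; rw [if_pos (by rw [h1]; exact Set.mem_insert _ _)]
      have e2 : act pur T (φ x) = r := by
        unfold act; rw [if_neg (by rw [h1]; exact hγ)]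
      have e3 : act pur {γ} (φ x) = φ x := by
        unfold act; rw [if_pos (by rw [h1]; exact Set.mem_singleton _)]
      rw [e1, e2, e3]
      group
    · by_cases h2 : φ x ∈ T
      · have e1 : act pur (insert γ T) (φ x) = φ x := by
          unfold act; rw [if_pos (Set.mem_insert_of_mem _ h2)]
        have e2 : act pur T (φ x) = φ x := by
          unfold act; rw [if_pos h2]
        have e3 : act pur {γ} (φ x) = r := by
          unfold act; rw [if_neg (by simpa using h1)]
        rw [e1, e2, e3]
        have hc := hcomm _ hB _ (hpur (φ x))
        have h3 : A * lam⁻¹ * B * φ x = A * ((lam⁻¹ * B) * (φ x * r⁻¹)) * r := by group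
        have h4 : A * φ x * (lam * r)⁻¹ * (B * r) = A * ((φ x * r⁻¹) * (lam⁻¹ * B)) * r := by group
        rw [h3, h4, hc]
      · have e1 : act pur (insert γ T) (φ x) = r := by
          unfold act
          rw [if_neg (by
            intro h
            rcases Set.mem_insert_iff.mp h with h | h
            · exact h1 h
            · exact h2 h)]
        have e2 : act pur T (φ x) = r := by
          unfold act; rw [if_neg h2]
        have e3 : act pur {γ} (φ x) = r := by
          unfold act; rw [if_neg (by simpa using h1)]
        rw [e1, e2, e3]
        group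

/-- Reduction to morphisms with a single active element: if `N` is an abelian normal subgroup of the
finite group `G` and `pur g ∈ g N` for all `g`, then the languages recognized by `φ` have height at
most `n` as soon as this holds for the purified morphism and for all the morphisms which keep a
single element of `G` and purify all the others. -/
theorem hasHeight_of_single [Finite G] {n : ℕ}
    (hcomm : ∀ a ∈ N, ∀ b ∈ N, a * b = b * a) (hpur : ∀ g, g * (pur g)⁻¹ ∈ N)
    (h0 : ∀ π : G, HasHeight n (langOf fun w : List α => val pur φ ∅ w = π))
    (h1 : ∀ γ π : G, HasHeight n (langOf fun w : List α => val pur φ {γ} w = π)) (π : G) :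
    HasHeight n (langOf fun w : List α => (w.map φ).prod = π) := by
  classical
  have key : ∀ T : Finset G, ∀ π : G,
      HasHeight n (langOf fun w : List α => val pur φ (T : Set G) w = π) := by
    intro T
    induction T using Finset.induction_on with
    | empty =>
      intro π
      rw [Finset.coe_empty]
      exact h0 π
    | insert γ T hγ ih =>
      intro π
      rw [Finset.coe_insert]
      have hU : HasHeight n (langOf fun w : List α => ∃ t : G × G × G,
          t.1 * t.2.1⁻¹ * t.2.2 = π ∧
          w ∈ ((langOf fun w : List α => val pur φ (T : Set G) w = t.1) ⊓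
            (langOf fun w : List α => val pur φ ∅ w = t.2.1)) ⊓
            (langOf fun w : List α => val pur φ {γ} w = t.2.2)) :=
        HasHeight.iUnion_of _ _ fun t _ => ((ih t.1).inf (h0 t.2.1)).inf (h1 γ t.2.2)
      refine hU.of_iff fun w => ?_
      rw [mem_langOf, val_insert N hcomm hpur (T : Set G) γ (by simpa using hγ) w]
      constructor
      · intro h
        exact ⟨(_, _, _), h, ⟨rfl, rfl⟩, rfl⟩
      · rintro ⟨⟨a, b, c⟩, h, ⟨ha, hb⟩, hc⟩
        have ha' : val pur φ (T : Set G) w = a := ha
        have hb' : val pur φ ∅ w = b := hb
        have hc' : val pur φ {γ} w = c := hc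
        rw [ha', hb', hc']
        exact h
  have := Fintype.ofFinite G
  have h2 := key Finset.univ π
  rw [Finset.coe_univ] at h2
  refine h2.of_iff fun w => ?_
  rw [mem_langOf, mem_langOf, val_univ]

end

end Vale.Agent.Lib.P329
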