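import Vale.Agent.Lib.P329.Criterion
import Vale.Agent.Lib.P329.Reduction

namespace Vale.Agent.Lib.P329

open Equiv

variable {α : Type}

/-- any predicate of finitely many finite-valued runs, each of whose level sets has height at most
`n`, defines a language of height at most `n` -/
lemma hasHeight_of_tuple {ι S : Type} [Finite ι] [Finite S] {n : ℕ} (run : ι → List α → S)
    (h : ∀ i s, HasHeight n (langOf fun w : List α => run i w = s)) (F : (ι → S) → Prop) :
    HasHeight n (langOf fun w : List α => F fun i => run i w) := by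
  have hU : HasHeight n (langOf fun w : List α => ∃ t : ι → S, F t ∧
      w ∈ langOf fun w : List α => ∀ i, w ∈ langOf fun w : List α => run i w = t i) :=
    HasHeight.iUnion_of _ _ fun t _ => HasHeight.iInter _ fun i => h i (t i)
  refine hU.of_iff fun w => ?_
  constructor
  · intro hw
    exact ⟨fun i => run i w, hw, fun i => rfl⟩
  · rintro ⟨t, ht, hw⟩
    have : (fun i => run i w) = t := funext fun i => hw i
    rw [mem_langOf, this]
    exact ht

/-- the alternating group on four points -/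
abbrev A4 : Type := alternatingGroup (Fin 4)

/-- the 3-cycle `(0 1 2)` -/
def g0p : Perm (Fin 4) := c[0, 1, 2]

lemma g0p_mem : g0p ∈ alternatingGroup (Fin 4) := by
  rw [Equiv.Perm.mem_alternatingGroup]; decide

/-- the 3-cycle `(0 1 2)` as an element of the alternating group -/
def g0 : A4 := ⟨g0p, g0p_mem⟩

set_option maxRecDepth 100000 in
lemma sq_mul : ∀ a b : A4, a * a = 1 → b * b = 1 → (a * b) * (a * b) = 1 := by decide +kernel

set_option maxRecDepth 100000 in
lemma sq_comm : ∀ a b : A4, a * a = 1 → b * b = 1 → a * b = b * a := by decide +kernel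

/-- the Klein four-group inside the alternating group -/
def V4 : Subgroup A4 where
  carrier := {g | g * g = 1}
  mul_mem' := fun ha hb => sq_mul _ _ ha hb
  one_mem' := by simp
  inv_mem' := by
    intro g hg
    have hg' : g * g = 1 := hg
    have : g⁻¹ * g⁻¹ = (g * g)⁻¹ := by group
    show g⁻¹ * g⁻¹ = 1
    rw [this, hg', inv_one]

lemma mem_V4 {g : A4} : g ∈ V4 ↔ g * g = 1 := Iff.rfl

instance V4_normal : V4.Normal := by
  constructor
  intro n hn g
  have hn' : n * n = 1 := hn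
  show (g * n * g⁻¹) * (g * n * g⁻¹) = 1
  have : (g * n * g⁻¹) * (g * n * g⁻¹) = g * (n * n) * g⁻¹ := by group
  rw [this, hn']
  group

/-- the pure part of an element: the power of `g0` in its coset modulo the Klein four-group -/
def pur (g : A4) : A4 :=
  if g * g = 1 then 1 else if (g * g0⁻¹) * (g * g0⁻¹) = 1 then g0 else g0⁻¹

set_option maxRecDepth 100000 in
lemma pur_spec : ∀ g : A4, (g * (pur g)⁻¹) * (g * (pur g)⁻¹) = 1 := by decide +kernel

lemma pur_cases (g : A4) : pur g = 1 ∨ pur g = g0 ∨ pur g = g0⁻¹ := by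
  unfold pur
  split_ifs <;> simp

/-! ### Morphisms whose inverse action on the four points satisfies the criterion -/

/-- the automaton on the four points given by the inverse action -/
def dperm (ψ : α → A4) (i : Fin 4) (x : α) : Fin 4 := ((ψ x : Perm (Fin 4))⁻¹) i

lemma foldl_dperm (ψ : α → A4) (w : List α) (i : Fin 4) :
    w.foldl (dperm ψ) i = ((((w.map ψ).prod : A4) : Perm (Fin 4))⁻¹) i := by
  induction w generalizing i with
  | nil => simp
  | cons x w ih =>
    rw [List.foldl_cons, ih, List.map_cons, List.prod_cons]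
    simp [dperm, mul_inv_rev, Perm.mul_apply]

lemma prod_eq_iff (ψ : α → A4) (w : List α) (π : A4) :
    (w.map ψ).prod = π ↔ ∀ i, w.foldl (dperm ψ) i = ((π : Perm (Fin 4))⁻¹) i := by
  constructor
  · rintro rfl i
    exact foldl_dperm ψ w i
  · intro h
    apply Subtype.ext
    apply inv_injective
    ext i
    rw [← foldl_dperm, h]

/-- the base point used for the active element `γ` -/
def baseOf (γ : A4) : Fin 4 := if (γ : Perm (Fin 4)) 0 = 0 then 1 else 0

/-- the rank function used for the active element `γ` -/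
def rankOf (γ : A4) (i : Fin 4) : ℕ :=
  if ((γ : Perm (Fin 4))⁻¹) 3 = baseOf γ then (if i = 3 then 0 else 1) else (if i = 3 then 1 else 0)

set_option maxRecDepth 100000 in
lemma fin_rank : ∀ γ : A4, γ * γ ≠ 1 → ∀ t : A4, (t = γ ∨ t = 1 ∨ t = g0 ∨ t = g0⁻¹) →
    ∀ q : Fin 4, q ≠ baseOf γ → ((t : Perm (Fin 4))⁻¹) q ≠ baseOf γ →
      rankOf γ (((t : Perm (Fin 4))⁻¹) q) ≤ rankOf γ q := by decide +kernel

/-- auxiliary: `q` and its image under `t⁻¹` are off the base point and have the same rank -/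
def InClass (γ t : A4) (q : Fin 4) : Prop :=
  q ≠ baseOf γ ∧ ((t : Perm (Fin 4))⁻¹) q ≠ baseOf γ ∧
    rankOf γ (((t : Perm (Fin 4))⁻¹) q) = rankOf γ q

instance decInClass (γ t : A4) (q : Fin 4) : Decidable (InClass γ t q) := by
  unfold InClass; infer_instance

/-- auxiliary: the allowed values of the morphism -/
def Allowed (γ t : A4) : Prop := t = γ ∨ t = 1 ∨ t = g0 ∨ t = g0⁻¹

instance decAllowed (γ t : A4) : Decidable (Allowed γ t) := by
  unfold Allowed; infer_instance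

set_option maxRecDepth 100000 in
lemma fin_reset_aux : ∀ γ : A4, γ * γ ≠ 1 → ∀ t : A4, Allowed γ t →
    ∀ q₁ q₂ : Fin 4, InClass γ t q₁ → InClass γ t q₂ → rankOf γ q₁ = rankOf γ q₂ →
      ((((t : Perm (Fin 4))⁻¹) q₁ = q₁ ∧ ((t : Perm (Fin 4))⁻¹) q₂ = q₂) ∨
        ((t : Perm (Fin 4))⁻¹) q₁ = ((t : Perm (Fin 4))⁻¹) q₂) := by decide +kernel

lemma fin_reset (γ : A4) (hγ : γ * γ ≠ 1) (t : A4) (ht : t = γ ∨ t = 1 ∨ t = g0 ∨ t = g0⁻¹)
    (q₁ q₂ : Fin 4) (a1 : q₁ ≠ baseOf γ) (a2 : q₂ ≠ baseOf γ) (a3 : rankOf γ q₁ = rankOf γ q₂)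
    (a4 : ((t : Perm (Fin 4))⁻¹) q₁ ≠ baseOf γ) (a5 : ((t : Perm (Fin 4))⁻¹) q₂ ≠ baseOf γ)
    (a6 : rankOf γ (((t : Perm (Fin 4))⁻¹) q₁) = rankOf γ q₁)
    (a7 : rankOf γ (((t : Perm (Fin 4))⁻¹) q₂) = rankOf γ q₂) :
    ((((t : Perm (Fin 4))⁻¹) q₁ = q₁ ∧ ((t : Perm (Fin 4))⁻¹) q₂ = q₂) ∨
        ((t : Perm (Fin 4))⁻¹) q₁ = ((t : Perm (Fin 4))⁻¹) q₂) :=
  fin_reset_aux γ hγ t ht q₁ q₂ ⟨a1, a4, a6⟩ ⟨a2, a5, a7⟩ a3

/-- Case of an active element outside the Klein four-group. -/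
lemma hasHeight_shifting [Finite α] (γ : A4) (hγ : γ * γ ≠ 1) (ψ : α → A4)
    (hψ : ∀ x, ψ x = γ ∨ ψ x = 1 ∨ ψ x = g0 ∨ ψ x = g0⁻¹) (π : A4) :
    HasHeight 1 (langOf fun w : List α => (w.map ψ).prod = π) := by
  have h1 : RankHyp (dperm ψ) (baseOf γ) (rankOf γ) :=
    fun q a hq hq' => fin_rank γ hγ (ψ a) (hψ a) q hq hq'
  have h2 : ResetHyp (dperm ψ) (baseOf γ) (rankOf γ) :=
    fun a q₁ q₂ => fin_reset γ hγ (ψ a) (hψ a) q₁ q₂
  refine (hasHeight_of_tuple (fun (i : Fin 4) (w : List α) => w.foldl (dperm ψ) i)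
    (fun i s => hasHeight_run_eq h1 h2 i s)
    (fun t => ∀ i, t i = ((π : Perm (Fin 4))⁻¹) i)).of_iff fun w => ?_
  rw [mem_langOf, prod_eq_iff]
  exact Iff.rfl

end Vale.Agent.Lib.P329
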