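import Vale.Agent.Lib.P329.AltFour

namespace Vale.Agent.Lib.P329

open Equiv

variable {α : Type}

/-! ### Active element in the Klein four-group: counting automata on six states -/

/-- states: a level modulo 3 and a parity bit -/
abbrev S6 : Type := Fin 3 × Bool

/-- letters `0` (neutral), `1` (level up), `2` (level down), `3` (marked, level unchanged);
every non-neutral letter read at level `0` flips the bit -/
def d1 (s : S6) (a : Fin 4) : S6 :=
  if a = 0 then s
  else if a = 1 then (s.1 + 1, xor s.2 (decide (s.1 = 0)))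
  else if a = 2 then (s.1 - 1, xor s.2 (decide (s.1 = 0)))
  else (s.1, xor s.2 (decide (s.1 = 0)))

/-- as `d1`, but the marked letter is neutral -/
def d2 (s : S6) (a : Fin 4) : S6 := if a = 3 then s else d1 s a

/-- only the marked letter read at level `0` flips the bit -/
def d3 (s : S6) (a : Fin 4) : S6 :=
  if a = 0 then s
  else if a = 1 then (s.1 + 1, s.2)
  else if a = 2 then (s.1 - 1, s.2)
  else (s.1, xor s.2 (decide (s.1 = 0)))

/-- the rank function on the six states -/
def rank6 (s : S6) : ℕ :=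
  if s.2 then (if s.1 = 0 then 2 else 3) else (if s.1 = 0 then 0 else 1)

lemma d1_rank : RankHyp d1 ((0, false) : S6) rank6 := by
  unfold RankHyp; decide +kernel

lemma d2_rank : RankHyp d2 ((0, false) : S6) rank6 := by
  unfold RankHyp; decide +kernel

/-- auxiliary -/
def InClass6 (d : S6 → Fin 4 → S6) (a : Fin 4) (q : S6) : Prop :=
  q ≠ (0, false) ∧ d q a ≠ (0, false) ∧ rank6 (d q a) = rank6 q

instance decInClass6 (d : S6 → Fin 4 → S6) (a : Fin 4) (q : S6) : Decidable (InClass6 d a q) := by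
  unfold InClass6; infer_instance

lemma d1_reset_aux : ∀ (a : Fin 4) (q₁ q₂ : S6), InClass6 d1 a q₁ → InClass6 d1 a q₂ →
    rank6 q₁ = rank6 q₂ → (d1 q₁ a = q₁ ∧ d1 q₂ a = q₂) ∨ d1 q₁ a = d1 q₂ a := by decide +kernel

lemma d2_reset_aux : ∀ (a : Fin 4) (q₁ q₂ : S6), InClass6 d2 a q₁ → InClass6 d2 a q₂ →
    rank6 q₁ = rank6 q₂ → (d2 q₁ a = q₁ ∧ d2 q₂ a = q₂) ∨ d2 q₁ a = d2 q₂ a := by decide +kernel

lemma d1_reset : ResetHyp d1 ((0, false) : S6) rank6 :=
  fun a q₁ q₂ a1 a2 a3 a4 a5 a6 a7 => d1_reset_aux a q₁ q₂ ⟨a1, a4, a6⟩ ⟨a2, a5, a7⟩ a3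

lemma d2_reset : ResetHyp d2 ((0, false) : S6) rank6 :=
  fun a q₁ q₂ a1 a2 a3 a4 a5 a6 a7 => d2_reset_aux a q₁ q₂ ⟨a1, a4, a6⟩ ⟨a2, a5, a7⟩ a3

/-- the element of the group coded by a letter -/
def dec (γ : A4) (a : Fin 4) : A4 :=
  if a = 0 then 1 else if a = 1 then g0 else if a = 2 then g0⁻¹ else γ

/-- the value of the morphism recovered from the three counters -/
def Psi (γ : A4) (s0 s1 s2 : S6) : A4 :=
  (if s0.2 then γ else 1) * (if s1.2 then g0 * γ * g0⁻¹ else 1) *
    (if s2.2 then g0 * g0 * γ * (g0 * g0)⁻¹ else 1) * g0 ^ (s0.1 : ℕ)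

/-- the levels of the three counters are shifted by `0, 1, 2` -/
def Inv3 (s0 s1 s2 : S6) : Prop := s1.1 = s0.1 - 1 ∧ s2.1 = s0.1 - 2

instance decInv3 (s0 s1 s2 : S6) : Decidable (Inv3 s0 s1 s2) := by
  unfold Inv3; infer_instance

set_option maxRecDepth 100000 in
lemma psi_step : ∀ γ : A4, γ * γ = 1 → ∀ (s0 s1 s2 : S6) (a : Fin 4), Inv3 s0 s1 s2 →
    Inv3 (d3 s0 a) (d3 s1 a) (d3 s2 a) ∧
      Psi γ (d3 s0 a) (d3 s1 a) (d3 s2 a) = Psi γ s0 s1 s2 * dec γ a := by decide +kernel

/-- the third counter is the difference of the first two -/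
def Inv12 (s1 s2 s3 : S6) : Prop := s1.1 = s3.1 ∧ s2.1 = s3.1 ∧ s3.2 = xor s1.2 s2.2

instance decInv12 (s1 s2 s3 : S6) : Decidable (Inv12 s1 s2 s3) := by
  unfold Inv12; infer_instance

lemma inv12_step : ∀ (s1 s2 s3 : S6) (a : Fin 4), Inv12 s1 s2 s3 →
    Inv12 (d1 s1 a) (d2 s2 a) (d3 s3 a) := by decide +kernel

/-- the initial state of the counter for level `j` -/
def start6 (j : Fin 3) : S6 := (-j, false)

section

variable (c : α → Fin 4)

/-- run of a six-state automaton on a word, through the letter coding `c` -/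
def run6 (d : S6 → Fin 4 → S6) (j : Fin 3) (w : List α) : S6 :=
  w.foldl (fun s x => d s (c x)) (start6 j)

lemma run6_concat (d : S6 → Fin 4 → S6) (j : Fin 3) (w : List α) (x : α) :
    run6 c d j (w ++ [x]) = d (run6 c d j w) (c x) := by
  unfold run6
  rw [List.foldl_append]
  rfl

lemma run6_inv12 (j : Fin 3) (w : List α) :
    Inv12 (run6 c d1 j w) (run6 c d2 j w) (run6 c d3 j w) := by
  induction w using List.reverseRecOn with
  | nil => exact ⟨rfl, rfl, rfl⟩
  | append_singleton w x ih =>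
    rw [run6_concat, run6_concat, run6_concat]
    exact inv12_step _ _ _ _ ih

lemma run6_psi (γ : A4) (hγ : γ * γ = 1) (w : List α) :
    Inv3 (run6 c d3 0 w) (run6 c d3 1 w) (run6 c d3 2 w) ∧
      (w.map fun x => dec γ (c x)).prod = Psi γ (run6 c d3 0 w) (run6 c d3 1 w) (run6 c d3 2 w) := by
  induction w using List.reverseRecOn with
  | nil =>
    have h0 : Inv3 (start6 0) (start6 1) (start6 2) := by decide
    refine ⟨h0, ?_⟩
    simp [run6, Psi, start6]
  | append_singleton w x ih =>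
    rw [run6_concat, run6_concat, run6_concat]
    obtain ⟨h1, h2⟩ := psi_step γ hγ _ _ _ (c x) ih.1
    refine ⟨h1, ?_⟩
    rw [h2, ← ih.2, List.map_append, List.prod_append]
    simp

/-- the third counter recovered from the first two -/
def comb (s1 s2 : S6) : S6 := (s1.1, xor s1.2 s2.2)

lemma run6_d3 (j : Fin 3) (w : List α) :
    run6 c d3 j w = comb (run6 c d1 j w) (run6 c d2 j w) := by
  obtain ⟨h1, -, h3⟩ := run6_inv12 c j w
  exact Prod.ext h1.symm h3

/-- Case of an active element of the Klein four-group, in coded form. -/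
lemma hasHeight_klein_coded [Finite α] (γ : A4) (hγ : γ * γ = 1) (π : A4) :
    HasHeight 1 (langOf fun w : List α => (w.map fun x => dec γ (c x)).prod = π) := by
  have hrun : ∀ (i : Bool × Fin 3) (s : S6), HasHeight 1 (langOf fun w : List α =>
      run6 c (if i.1 then d1 else d2) i.2 w = s) := by
    rintro ⟨b, j⟩ s
    cases b
    · exact hasHeight_run_eq (δ := fun s x => d2 s (c x)) (p := (0, false)) (ρ := rank6)
        (fun q a => d2_rank q (c a)) (fun a => d2_reset (c a)) (start6 j) s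
    · exact hasHeight_run_eq (δ := fun s x => d1 s (c x)) (p := (0, false)) (ρ := rank6)
        (fun q a => d1_rank q (c a)) (fun a => d1_reset (c a)) (start6 j) s
  refine (hasHeight_of_tuple
    (fun (i : Bool × Fin 3) (w : List α) => run6 c (if i.1 then d1 else d2) i.2 w) hrun
    (fun t => Psi γ (comb (t (true, 0)) (t (false, 0))) (comb (t (true, 1)) (t (false, 1)))
      (comb (t (true, 2)) (t (false, 2))) = π)).of_iff fun w => ?_
  rw [mem_langOf, mem_langOf, (run6_psi c γ hγ w).2, run6_d3, run6_d3, run6_d3]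
  rfl

end

end Vale.Agent.Lib.P329
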