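import Vale.Agent.Lib.P329.AltFourKlein

namespace Vale.Agent.Lib.P329

open Equiv

variable {α : Type}

lemma g0_sq_ne : g0 * g0 ≠ 1 := by decide +kernel

open Classical in
/-- the coding of the letters relative to the active element `γ` -/
noncomputable def code (φ : α → A4) (γ : A4) (x : α) : Fin 4 :=
  if φ x = γ then 3 else if pur (φ x) = 1 then 0 else if pur (φ x) = g0 then 1 else 2

lemma act_eq_dec (φ : α → A4) (γ : A4) (x : α) :
    act pur {γ} (φ x) = dec γ (code φ γ x) := by
  unfold act code
  by_cases h : φ x = γ
  · rw [if_pos (by rw [h]; exact Set.mem_singleton _), if_pos h, h]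
    simp [dec]
  · rw [if_neg (by simpa using h), if_neg h]
    rcases pur_cases (φ x) with h1 | h1 | h1
    · rw [if_pos h1, h1]
      simp [dec]
    · have h10 : g0 ≠ 1 := by decide +kernel
      rw [if_neg (by rw [h1]; exact h10), if_pos h1, h1]
      simp [dec]
    · have h10 : g0⁻¹ ≠ 1 := by decide +kernel
      have h11 : g0⁻¹ ≠ g0 := by decide +kernel
      rw [if_neg (by rw [h1]; exact h10), if_neg (by rw [h1]; exact h11), h1]
      simp [dec]

/-- Every language `{w : φ(w) = π}` recognized by the alternating group on four points has
generalized star height at most one. -/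
theorem hasHeight_A4_eq [Finite α] (φ : α → A4) (π : A4) :
    HasHeight 1 (langOf fun w : List α => (w.map φ).prod = π) := by
  refine hasHeight_of_single (pur := pur) (φ := φ) V4 (fun a ha b hb => sq_comm a b ha hb)
    pur_spec ?_ ?_ π
  · intro π
    refine hasHeight_shifting g0 g0_sq_ne (fun x => act pur ∅ (φ x)) (fun x => ?_) π
    rw [act_empty]
    rcases pur_cases (φ x) with h | h | h
    · exact Or.inr (Or.inl h)
    · exact Or.inl h
    · exact Or.inr (Or.inr (Or.inr h))
  · intro γ π
    by_cases hγ : γ * γ = 1
    · have h := hasHeight_klein_coded (code φ γ) γ hγ π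
      refine h.of_iff fun w => ?_
      rw [mem_langOf, mem_langOf]
      unfold val
      have : (fun x => act pur {γ} (φ x)) = fun x => dec γ (code φ γ x) :=
        funext fun x => act_eq_dec φ γ x
      rw [this]
    · refine hasHeight_shifting γ hγ (fun x => act pur {γ} (φ x)) (fun x => ?_) π
      by_cases h : φ x = γ
      · left
        unfold act
        rw [if_pos (by rw [h]; exact Set.mem_singleton _), h]
      · right
        have : act pur {γ} (φ x) = pur (φ x) := by
          unfold act
          rw [if_neg (by simpa using h)]
        rw [this]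
        exact pur_cases (φ x)

theorem hasHeight_A4 [Finite α] (φ : α → A4) (P : A4 → Prop) :
    HasHeight 1 (langOf fun w : List α => P (w.map φ).prod) := by
  refine (HasHeight.iUnion_of P (fun π => langOf fun w : List α => (w.map φ).prod = π)
    fun π _ => hasHeight_A4_eq φ π).of_iff fun w => ?_
  constructor
  · intro h; exact ⟨_, h, rfl⟩
  · rintro ⟨π, h, hw⟩
    have hw' : (w.map φ).prod = π := hw
    rw [mem_langOf, hw']; exact h

end Vale.Agent.Lib.P329
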