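import Vale.Agent.Lib.P329.Criterion
import Vale.Agent.Lib.P329.Schutz.Main

namespace Vale.Agent.Lib.P329

open Computability

variable {α X : Type}

/-- Off the base point `p` the automaton has only trivial cycles: if reading `w` repeatedly (`k ≥ 1`
times) from `q` never enters `p` and leads back to `q`, then already `w` fixes `q`. -/
def CycleFree (δ : X → α → X) (p : X) : Prop :=
  ∀ (q : X) (w : List α) (k : ℕ), 0 < k → Avoid δ p q (List.replicate k w).flatten q →
    w.foldl δ q = q

/-- the restricted action of a letter off the base point (`none` is a sink) -/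
def pstep (δ : X → α → X) (p : X) [DecidableEq X] (a : α) : Option X → Option X
  | none => none
  | some q => if δ q a = p then none else some (δ q a)

/-- the sink is absorbing -/
lemma foldl_pstep_none [DecidableEq X] (δ : X → α → X) (p : X) (w : List α) :
    w.foldl (fun z a => pstep δ p a z) none = none := by
  induction w with
  | nil => rfl
  | cons a w ih => exact ih

/-- the restricted run computes `Avoid` -/
lemma foldl_pstep_eq_some [DecidableEq X] (δ : X → α → X) (p : X) (q q' : X) (w : List α) :
    w.foldl (fun z a => pstep δ p a z) (some q) = some q' ↔ Avoid δ p q w q' := by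
  induction w generalizing q with
  | nil => simp [Avoid]
  | cons a w ih =>
    rw [List.foldl_cons]
    by_cases h : δ q a = p
    · have h1 : pstep δ p a (some q) = none := by simp [pstep, h]
      rw [h1, foldl_pstep_none]
      simp [Avoid, h]
    · have h1 : pstep δ p a (some q) = some (δ q a) := by simp [pstep, h]
      rw [h1, ih]
      simp [Avoid, h]

/-- a self-map of a finite set fixing every point that lies on one of its cycles is aperiodic -/
lemma iterate_stable {Z : Type} [Finite Z] (f : Z → Z)
    (h : ∀ (z : Z) (k : ℕ), 0 < k → f^[k] z = z → f z = z) :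
    ∃ n : ℕ, f^[n + 1] = f^[n] := by
  classical
  have := Fintype.ofFinite Z
  refine ⟨Fintype.card Z, funext fun z => ?_⟩
  obtain ⟨i, j, hij, heq⟩ : ∃ i j : Fin (Fintype.card Z + 1), i ≠ j ∧
      f^[(i : ℕ)] z = f^[(j : ℕ)] z :=
    Fintype.exists_ne_map_eq_of_card_lt (fun i : Fin (Fintype.card Z + 1) => f^[(i : ℕ)] z)
      (by simp)
  -- a fixed point is reached after at most `card Z` steps
  have key : ∀ i j : ℕ, i < j → j ≤ Fintype.card Z → f^[i] z = f^[j] z →
      f^[Fintype.card Z + 1] z = f^[Fintype.card Z] z := by
    intro i j hlt hj he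
    have hfix : f (f^[i] z) = f^[i] z := by
      apply h _ (j - i) (by omega)
      rw [← Function.iterate_add_apply, Nat.sub_add_cancel hlt.le, he]
    have h1 : ∀ n, f^[n + i] z = f^[i] z := fun n => by
      rw [Function.iterate_add_apply, Function.iterate_fixed hfix]
    have e1 : Fintype.card Z + 1 = (Fintype.card Z + 1 - i) + i := by omega
    have e2 : Fintype.card Z = (Fintype.card Z - i) + i := by omega
    rw [e1, h1]
    conv_rhs => rw [e2, h1]
  have hne : (i : ℕ) ≠ (j : ℕ) := fun h' => hij (Fin.ext h')
  rcases lt_or_gt_of_ne hne with hlt | hlt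
  · exact key i j hlt (Nat.lt_succ_iff.mp j.2) heq
  · exact key j i hlt (Nat.lt_succ_iff.mp i.2) heq.symm

/-- an initial segment of a path off the base point is a path off the base point -/
lemma avoid_left {δ : X → α → X} {p q q' : X} {u v : List α} (h : Avoid δ p q (u ++ v) q') :
    Avoid δ p q u (u.foldl δ q) := by
  induction u generalizing q with
  | nil => rfl
  | cons a u ih => exact ⟨h.1, ih h.2⟩

/-- reading a power of a word is iterating the run of the word -/
lemma foldl_replicate_flatten {Z : Type} (g : Z → α → Z) (w : List α) (k : ℕ) (z : Z) :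
    (List.replicate k w).flatten.foldl g z = (fun z => w.foldl g z)^[k] z := by
  induction k generalizing z with
  | zero => rfl
  | succ k ih =>
    rw [List.replicate_succ, List.flatten_cons, List.foldl_append, ih, Function.iterate_succ_apply]

/-- the morphism into the (opposite) monoid of self-maps of `Option X` -/
def pmor (δ : X → α → X) (p : X) [DecidableEq X] (a : α) : (Function.End (Option X))ᵐᵒᵖ :=
  MulOpposite.op (pstep δ p a)

lemma unop_prod_pmor [DecidableEq X] (δ : X → α → X) (p : X) (w : List α) (z : Option X) :
    ((w.map (pmor δ p)).prod).unop z = w.foldl (fun z a => pstep δ p a z) z := by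
  induction w generalizing z with
  | nil => rfl
  | cons a w ih =>
    rw [List.map_cons, List.prod_cons, MulOpposite.unop_mul, List.foldl_cons, ← ih]
    rfl

lemma unop_pow_apply {Z : Type} (P : (Function.End Z)ᵐᵒᵖ) (n : ℕ) (z : Z) :
    (P ^ n).unop z = (P.unop : Z → Z)^[n] z := by
  induction n generalizing z with
  | zero => rfl
  | succ n ih =>
    have h1 : (P ^ (n + 1)).unop z = (P ^ n).unop (P.unop z) := by
      rw [pow_succ', MulOpposite.unop_mul]
      rfl
    rw [h1, ih]
    rfl

/-- Off a base point with only trivial cycles, the path languages are star-free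
(by Schutzenberger's theorem applied to the monoid of self-maps with a sink). -/
theorem hasHeight_avoid_of_cycleFree [Finite α] [Finite X] {δ : X → α → X} {p : X}
    (h : CycleFree δ p) (n : ℕ) (q q' : X) :
    HasHeight n (langOf fun w : List α => Avoid δ p q w q') := by
  classical
  have hfin0 : Finite (Function.End (Option X)) := inferInstanceAs (Finite (Option X → Option X))
  have hfin : Finite (Function.End (Option X))ᵐᵒᵖ := Finite.of_equiv _ MulOpposite.opEquiv
  have hM : ∀ w : List α, ∃ n : ℕ,
      (w.map (pmor δ p)).prod ^ (n + 1) = (w.map (pmor δ p)).prod ^ n := by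
    intro w
    obtain ⟨n, hn⟩ := iterate_stable (fun z => w.foldl (fun z a => pstep δ p a z) z) (by
      intro z k hk hz
      cases z with
      | none => exact foldl_pstep_none δ p w
      | some q =>
        rw [← foldl_replicate_flatten, foldl_pstep_eq_some] at hz
        have h1 := h q w k hk hz
        obtain ⟨k', rfl⟩ : ∃ k', k = k' + 1 := ⟨k - 1, by omega⟩
        rw [List.replicate_succ, List.flatten_cons] at hz
        have h2 := avoid_left hz
        rw [h1] at h2
        exact (foldl_pstep_eq_some δ p q q w).mpr h2)
    refine ⟨n, MulOpposite.unop_injective (funext fun z => ?_)⟩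
    have hf : (((w.map (pmor δ p)).prod).unop : Option X → Option X) =
        fun z => w.foldl (fun z a => pstep δ p a z) z := funext fun z => unop_prod_pmor δ p w z
    rw [unop_pow_apply, unop_pow_apply, hf, hn]
  have hU : HasHeight 0 (langOf fun w : List α => ∃ m : (Function.End (Option X))ᵐᵒᵖ,
      m.unop (some q) = some q' ∧ w ∈ langOf fun w : List α => (w.map (pmor δ p)).prod = m) :=
    HasHeight.iUnion_of _ _ fun m _ => starFree_of_aperiodic_image (pmor δ p) hM m
  refine (hU.mono (Nat.zero_le n)).of_iff fun w => ?_
  rw [mem_langOf, ← foldl_pstep_eq_some, ← unop_prod_pmor]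
  constructor
  · intro hw
    exact ⟨_, hw, rfl⟩
  · rintro ⟨m, hm, hw⟩
    have hw' : (w.map (pmor δ p)).prod = m := hw
    rw [hw']
    exact hm

lemma hasHeight_hit_of_cycleFree [Finite α] [Finite X] {δ : X → α → X} {p : X}
    (h : CycleFree δ p) (n : ℕ) (q : X) : HasHeight n (Hit δ p q) := by
  have hB : HasHeight n (langOf fun w : List α => ∃ ca : X × α, δ ca.1 ca.2 = p ∧
      w ∈ (langOf fun u : List α => Avoid δ p q u ca.1) * ({[ca.2]} : Language α)) :=
    HasHeight.iUnion_of _ _ fun ca _ =>
      (hasHeight_avoid_of_cycleFree h n q ca.1).mul (HasHeight.letter ca.2)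
  refine hB.of_iff fun w => ?_
  constructor
  · rintro ⟨u, c, a, rfl, h3, h4⟩
    exact ⟨(c, a), h4, Language.mem_mul.mpr ⟨u, h3, [a], rfl, rfl⟩⟩
  · rintro ⟨⟨c, a⟩, h4, hmem⟩
    obtain ⟨u, h3, y, hy, rfl⟩ := Language.mem_mul.mp hmem
    have hy' : y = [a] := hy
    subst hy'
    exact ⟨u, c, a, rfl, h3, h4⟩

/-- General base point criterion, for a single target state. -/
theorem hasHeight_run_eq_of_cycleFree [Finite α] [Finite X] {δ : X → α → X} {p : X}
    (h : CycleFree δ p) (q₀ q₁ : X) :
    HasHeight 1 (langOf fun w : List α => w.foldl δ q₀ = q₁) := by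
  have hA : HasHeight 1 (langOf fun w : List α => Avoid δ p q₀ w q₁) :=
    hasHeight_avoid_of_cycleFree h 1 q₀ q₁
  have hS : HasHeight 1 ((Hit δ p p)∗) := (hasHeight_hit_of_cycleFree h 0 p).kstar
  have hB := ((hasHeight_hit_of_cycleFree h 1 q₀).mul hS).mul
    (hasHeight_avoid_of_cycleFree h 1 p q₁)
  refine (hA.add hB).of_iff fun w => ?_
  rw [mem_langOf, run_iff (p := p), Language.mem_add]
  exact Iff.rfl

end Vale.Agent.Lib.P329
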