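import Vale.Agent.Lib.P329.Aper

namespace Vale.Agent.Lib.P329

open Computability

variable {α : Type} [DecidableEq α] (p : ℕ) (M : ℕ) (s : α → ZMod p) (μ : α)

/-- A state of the block automaton is a pair (level, flag). A block is a factor between two
consecutive visits of level `0`; the flag records whether the first letter of the block in progress
is `μ`. `eflag y a` is the flag of the block in progress once `a` has been read from `y`. -/
def eflag (y : ZMod p × Bool) (a : α) : Bool := if y.1 = 0 then decide (a = μ) else y.2

/-- transition of the block automaton; at level `0` the flag is normalized to `false` -/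
def ystep (y : ZMod p × Bool) (a : α) : ZMod p × Bool :=
  if y.1 + s a = 0 then (0, false) else (y.1 + s a, eflag p μ y a)

/-- the block automaton with a counter modulo `M`: the counter is incremented each time a block is
completed, except when `U flag lastLetter` holds -/
def xstep (U : Bool → α → Bool) (q : (ZMod p × Bool) × ZMod M) (a : α) :
    (ZMod p × Bool) × ZMod M :=
  (ystep p s μ q.1 a,
    if q.1.1 + s a = 0 ∧ U (eflag p μ q.1 a) a = false then q.2 + 1 else q.2)

/-- every block is counted -/
def U0 : Bool → α → Bool := fun _ _ => false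
/-- the blocks that begin with `μ` and do not end with `μ` are not counted -/
def U1 : Bool → α → Bool := fun f a => f && !decide (a = μ)
/-- the blocks that do not begin with `μ` and end with `μ` are not counted -/
def U2 : Bool → α → Bool := fun f a => !f && decide (a = μ)
/-- the blocks that begin and end with `μ` are not counted -/
def U3 : Bool → α → Bool := fun f a => f && decide (a = μ)

section Basic

variable {p M s μ}

lemma ystep_fst (y : ZMod p × Bool) (a : α) : (ystep p s μ y a).1 = y.1 + s a := by
  unfold ystep
  split_ifs with h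
  · exact h.symm
  · rfl

lemma ystep_of_zero (y : ZMod p × Bool) (a : α) (h : y.1 + s a = 0) :
    ystep p s μ y a = (0, false) := by
  unfold ystep; rw [if_pos h]

lemma yrun_fst (y : ZMod p × Bool) (w : List α) :
    (w.foldl (ystep p s μ) y).1 = y.1 + (w.map s).sum := by
  induction w generalizing y with
  | nil => simp
  | cons a w ih => rw [List.foldl_cons, ih, ystep_fst, List.map_cons, List.sum_cons, add_assoc]

lemma xrun_fst (U : Bool → α → Bool) (q : (ZMod p × Bool) × ZMod M) (w : List α) :
    (w.foldl (xstep p M s μ U) q).1 = w.foldl (ystep p s μ) q.1 := by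
  induction w generalizing q with
  | nil => rfl
  | cons a w ih => rw [List.foldl_cons, ih, List.foldl_cons]; rfl

/-- all the blocks completed along the path are not counted -/
def FlatY (s : α → ZMod p) (μ : α) (U : Bool → α → Bool) : ZMod p × Bool → List α → Prop
  | _, [] => True
  | y, a :: w => (y.1 + s a = 0 → U (eflag p μ y a) a = true) ∧ FlatY s μ U (ystep p s μ y a) w

lemma flatY_append (U : Bool → α → Bool) (y : ZMod p × Bool) (u v : List α) :
    FlatY s μ U y (u ++ v) ↔ FlatY s μ U y u ∧ FlatY s μ U (u.foldl (ystep p s μ) y) v := by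
  induction u generalizing y with
  | nil => simp [FlatY]
  | cons a u ih =>
    rw [List.cons_append, FlatY, FlatY, ih, List.foldl_cons, and_assoc]

lemma xrun_snd_of_flat (U : Bool → α → Bool) (q : (ZMod p × Bool) × ZMod M) (w : List α)
    (h : FlatY s μ U q.1 w) : (w.foldl (xstep p M s μ U) q).2 = q.2 := by
  induction w generalizing q with
  | nil => rfl
  | cons a w ih =>
    rw [List.foldl_cons, ih _ h.2]
    unfold xstep
    simp only
    rw [if_neg]
    rintro ⟨h1, h2⟩
    rw [h.1 h1] at h2
    exact Bool.noConfusion h2

lemma val_succ_of_ne [NeZero M] (x : ZMod M) (h : x + 1 ≠ 0) : (x + 1).val = x.val + 1 := by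
  have hM : M ≠ 0 := NeZero.ne M
  by_cases h1 : M = 1
  · subst h1
    exact absurd (Subsingleton.elim _ _) h
  have : Fact (1 < M) := ⟨by omega⟩
  have hlt : x.val < M := ZMod.val_lt x
  by_cases h2 : x.val + 1 < M
  · rw [ZMod.val_add_of_lt (by rwa [ZMod.val_one]), ZMod.val_one]
  · exfalso
    apply h
    have h3 : x.val + 1 = M := by omega
    have h4 : ((x.val + 1 : ℕ) : ZMod M) = 0 := by rw [h3]; exact ZMod.natCast_self M
    rw [Nat.cast_add, ZMod.natCast_zmod_val, Nat.cast_one] at h4
    exact h4

/-- along a path avoiding the base point the counter does not decrease, and if it comes back to its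
value the path is flat -/
lemma avoid_mono [NeZero M] (U : Bool → α → Bool) (q q' : (ZMod p × Bool) × ZMod M) (w : List α)
    (h : Avoid (xstep p M s μ U) ((0, false), 0) q w q') :
    q.2.val ≤ q'.2.val ∧ (q.2.val = q'.2.val → FlatY s μ U q.1 w) := by
  induction w generalizing q with
  | nil => cases h; exact ⟨le_refl _, fun _ => trivial⟩
  | cons a w ih =>
    obtain ⟨h1, h2⟩ := h
    obtain ⟨h3, h4⟩ := ih _ h2
    by_cases hc : q.1.1 + s a = 0 ∧ U (eflag p μ q.1 a) a = false
    · have e2 : (xstep p M s μ U q a).2 = q.2 + 1 := by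
        unfold xstep; simp only; rw [if_pos hc]
      have e1 : (xstep p M s μ U q a).1 = (0, false) := by
        unfold xstep ystep; simp only; rw [if_pos hc.1]
      have hne : q.2 + 1 ≠ 0 := by
        intro h0
        apply h1
        exact Prod.ext e1 (e2.trans h0)
      rw [e2, val_succ_of_ne _ hne] at h3
      exact ⟨by omega, fun h5 => by omega⟩
    · have e2 : (xstep p M s μ U q a).2 = q.2 := by
        unfold xstep; simp only; rw [if_neg hc]
      rw [e2] at h3 h4
      refine ⟨h3, fun h5 => ⟨fun h6 => ?_, h4 h5⟩⟩
      by_contra h7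
      exact hc ⟨h6, by simpa using h7⟩

/-- powers of a word -/
lemma flatten_replicate_succ (k : ℕ) (w : List α) :
    (List.replicate (k + 1) w).flatten = w ++ (List.replicate k w).flatten := by
  rw [List.replicate_succ, List.flatten_cons]

lemma flatten_replicate_add (a b : ℕ) (w : List α) :
    (List.replicate (a + b) w).flatten =
      (List.replicate a w).flatten ++ (List.replicate b w).flatten := by
  rw [List.replicate_add, List.flatten_append]

lemma map_sum_flatten_replicate (k : ℕ) (w : List α) :
    ((List.replicate k w).flatten.map s).sum = k * (w.map s).sum := by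
  induction k with
  | zero => simp
  | succ k ih =>
    rw [flatten_replicate_succ, List.map_append, List.sum_append, ih]
    push_cast
    ring

lemma foldl_pow_of_fixed {X : Type} (δ : X → α → X) (y : X) (w : List α) (h : w.foldl δ y = y)
    (k : ℕ) : (List.replicate k w).flatten.foldl δ y = y := by
  induction k with
  | zero => rfl
  | succ k ih => rw [flatten_replicate_succ, List.foldl_append, h, ih]

/-- two states of the same level are merged by a word, or both keep their flags -/
lemma sync (v : List α) (y y' : ZMod p × Bool) (h : y.1 = y'.1) :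
    v.foldl (ystep p s μ) y = v.foldl (ystep p s μ) y' ∨
      ((v.foldl (ystep p s μ) y).2 = y.2 ∧ (v.foldl (ystep p s μ) y').2 = y'.2) := by
  induction v generalizing y y' with
  | nil => exact Or.inr ⟨rfl, rfl⟩
  | cons a v ih =>
    rw [List.foldl_cons, List.foldl_cons]
    by_cases h0 : y.1 + s a = 0
    · left
      have e1 : ystep p s μ y a = (0, false) := by unfold ystep; rw [if_pos h0]
      have e2 : ystep p s μ y' a = (0, false) := by unfold ystep; rw [if_pos (h ▸ h0)]
      rw [e1, e2]
    · have e1 : ystep p s μ y a = (y.1 + s a, eflag p μ y a) := by unfold ystep; rw [if_neg h0]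
      have e2 : ystep p s μ y' a = (y.1 + s a, eflag p μ y' a) := by
        unfold ystep; rw [if_neg (h ▸ h0), h]
      by_cases hl : y.1 = 0
      · left
        have : eflag p μ y a = eflag p μ y' a := by
          unfold eflag; rw [if_pos hl, if_pos (h ▸ hl)]
        rw [e1, e2, this]
      · have f1 : eflag p μ y a = y.2 := by unfold eflag; rw [if_neg hl]
        have f2 : eflag p μ y' a = y'.2 := by unfold eflag; rw [if_neg (h ▸ hl)]
        rcases ih (ystep p s μ y a) (ystep p s μ y' a) (by rw [e1, e2]) with h3 | h3
        · exact Or.inl h3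
        · right
          rw [e1, e2] at h3
          rw [e1, e2]
          exact ⟨h3.1.trans f1, h3.2.trans f2⟩

/-- a closed path of a word of level `0` -/
lemma fixed_of_level_zero (y : ZMod p × Bool) (w : List α) (k : ℕ) (hk : 0 < k)
    (hw : (w.map s).sum = 0) (hc : (List.replicate k w).flatten.foldl (ystep p s μ) y = y) :
    w.foldl (ystep p s μ) y = y := by
  obtain ⟨k, rfl⟩ : ∃ j, k = j + 1 := ⟨k - 1, by omega⟩
  have hl : y.1 = (w.foldl (ystep p s μ) y).1 := by rw [yrun_fst, hw, add_zero]
  rcases sync (s := s) (μ := μ) w y (w.foldl (ystep p s μ) y) hl with h | h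
  · rw [flatten_replicate_succ, List.foldl_append, foldl_pow_of_fixed _ _ _ h.symm] at hc
    exact hc
  · exact Prod.ext hl.symm h.1

end Basic

section Cycle

variable {p M s μ}

/-- a flat closed path can be prolonged for ever -/
lemma flat_pow (U : Bool → α → Bool) (y : ZMod p × Bool) (w : List α) (k : ℕ) (hk : 0 < k)
    (hc : (List.replicate k w).flatten.foldl (ystep p s μ) y = y)
    (hf : FlatY s μ U y (List.replicate k w).flatten) (n : ℕ) :
    FlatY s μ U y (List.replicate n w).flatten := by
  induction n using Nat.strong_induction_on with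
  | _ n ih =>
    by_cases hn : n ≤ k
    · obtain ⟨d, rfl⟩ := Nat.exists_eq_add_of_le hn
      rw [flatten_replicate_add, flatY_append] at hf
      exact hf.1
    · obtain ⟨d, rfl⟩ := Nat.exists_eq_add_of_le (Nat.le_of_not_le hn)
      rw [flatten_replicate_add, flatY_append, hc]
      exact ⟨hf, ih d (by omega)⟩

/-- reduction of the cycle condition to the absence of flat periodic paths of nonzero level -/
lemma cycleFree_of [NeZero M] (U : Bool → α → Bool)
    (hno : ∀ (y : ZMod p × Bool) (w : List α), w ≠ [] → (w.map s).sum ≠ 0 →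
      (∀ n, FlatY s μ U y (List.replicate n w).flatten) → False) :
    CycleFree (xstep p M s μ U) ((0, false), 0) := by
  intro q w k hk hav
  have hrun := run_of_avoid hav
  have hflat := (avoid_mono U q q _ hav).2 rfl
  have hcY : (List.replicate k w).flatten.foldl (ystep p s μ) q.1 = q.1 := by
    rw [← xrun_fst (M := M) U, hrun]
  have hall := flat_pow U q.1 w k hk hcY hflat
  by_cases hne : w = []
  · subst hne; rfl
  by_cases hl : (w.map s).sum = 0
  · have h1 : FlatY s μ U q.1 w := by
      have := hall 1
      simpa using this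
    exact Prod.ext ((xrun_fst U q w).trans (fixed_of_level_zero q.1 w k hk hl hcY))
      (xrun_snd_of_flat U q w h1)
  · exact (hno q.1 w hne hl hall).elim

variable [Fact p.Prime]

/-- every letter of a word of nonzero level arrives at level `0` in some (arbitrarily late) turn -/
lemma arrival (y : ZMod p × Bool) (w u v : List α) (a : α) (hw : w = u ++ a :: v)
    (hl : (w.map s).sum ≠ 0) (i0 : ℕ) :
    ∃ i, i0 ≤ i ∧ (((List.replicate i w).flatten ++ u).foldl (ystep p s μ) y).1 + s a = 0 := by
  set c : ZMod p := -(y.1 + (u.map s).sum + s a) / (w.map s).sum with hc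
  have hp : 0 < p := (Fact.out : p.Prime).pos
  have : NeZero p := ⟨hp.ne'⟩
  refine ⟨c.val + p * i0, by nlinarith, ?_⟩
  rw [yrun_fst, List.map_append, List.sum_append, map_sum_flatten_replicate]
  have h1 : ((c.val + p * i0 : ℕ) : ZMod p) = c := by
    rw [Nat.cast_add, ZMod.natCast_zmod_val, Nat.cast_mul, ZMod.natCast_self, zero_mul, add_zero]
  rw [h1, hc]
  field_simp
  ring

lemma completion (U : Bool → α → Bool) (y : ZMod p × Bool) (w u v : List α) (a : α)
    (hw : w = u ++ a :: v) (hl : (w.map s).sum ≠ 0)
    (hflat : ∀ n, FlatY s μ U y (List.replicate n w).flatten) (i0 : ℕ) :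
    ∃ i, i0 ≤ i ∧ (((List.replicate i w).flatten ++ u).foldl (ystep p s μ) y).1 + s a = 0 ∧
      U (eflag p μ (((List.replicate i w).flatten ++ u).foldl (ystep p s μ) y) a) a = true := by
  obtain ⟨i, hi, h0⟩ := arrival (μ := μ) y w u v a hw hl i0
  refine ⟨i, hi, h0, ?_⟩
  have h1 := hflat (i + 1)
  have h2 : (List.replicate (i + 1) w).flatten = ((List.replicate i w).flatten ++ u) ++ a :: v := by
    rw [flatten_replicate_add, List.append_assoc, ← hw]
    simp
  rw [h2, flatY_append] at h1
  exact h1.2.1 h0

lemma inv_run (P : α → Prop) (Inv : ZMod p × Bool → Prop)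
    (hstep : ∀ y a, P a → Inv y → Inv (ystep p s μ y a)) (v : List α) (hv : ∀ a ∈ v, P a)
    (y : ZMod p × Bool) (hy : Inv y) : Inv (v.foldl (ystep p s μ) y) := by
  induction v generalizing y with
  | nil => exact hy
  | cons a v ih =>
    rw [List.foldl_cons]
    exact ih (fun b hb => hv b (List.mem_cons_of_mem _ hb)) _ (hstep y a (hv a (by simp)) hy)

/-- no flat periodic path of nonzero level -/
lemma no_cycle (U : Bool → α → Bool) (P : α → Prop) (Inv : ZMod p × Bool → Prop)
    (h0 : Inv (0, false)) (hstep : ∀ y a, P a → Inv y → Inv (ystep p s μ y a))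
    (hU : ∀ y a, P a → Inv y → U (eflag p μ y a) a = false) (hP : ∀ f a, U f a = true → P a)
    (y : ZMod p × Bool) (w : List α) (hne : w ≠ []) (hl : (w.map s).sum ≠ 0)
    (hflat : ∀ n, FlatY s μ U y (List.replicate n w).flatten) : False := by
  have hall : ∀ a ∈ w, P a := by
    intro a ha
    obtain ⟨u, v, rfl⟩ := List.append_of_mem ha
    obtain ⟨i, -, -, h⟩ := completion U y _ u v a rfl hl hflat 0
    exact hP _ _ h
  obtain ⟨a0, v0, rfl⟩ := List.exists_cons_of_ne_nil hne
  obtain ⟨i1, -, h1, -⟩ := completion U y (a0 :: v0) [] v0 a0 rfl hl hflat 0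
  obtain ⟨i2, hi2, -, h2⟩ := completion U y (a0 :: v0) [] v0 a0 rfl hl hflat (i1 + 1)
  obtain ⟨d, rfl⟩ := Nat.exists_eq_add_of_le hi2
  have e : (List.replicate (i1 + 1 + d) (a0 :: v0)).flatten ++ [] =
      ((List.replicate i1 (a0 :: v0)).flatten ++ []) ++
        (a0 :: (v0 ++ (List.replicate d (a0 :: v0)).flatten)) := by
    rw [flatten_replicate_add, flatten_replicate_add]
    simp
  rw [e, List.foldl_append, List.foldl_cons] at h2
  have e1 : ystep p s μ (((List.replicate i1 (a0 :: v0)).flatten ++ []).foldl (ystep p s μ) y) a0 =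
      (0, false) := ystep_of_zero _ _ h1
  rw [e1] at h2
  have hv : ∀ a ∈ v0 ++ (List.replicate d (a0 :: v0)).flatten, P a := by
    intro a ha
    rcases List.mem_append.mp ha with ha | ha
    · exact hall a (List.mem_cons_of_mem _ ha)
    · obtain ⟨l, hl1, hl2⟩ := List.mem_flatten.mp ha
      rw [List.eq_of_mem_replicate hl1] at hl2
      exact hall a hl2
  have h3 := hU _ a0 (hall a0 (by simp)) (inv_run P Inv hstep _ hv _ h0)
  rw [h3] at h2
  exact Bool.noConfusion h2

end Cycle

variable [Fact p.Prime] [NeZero M]

theorem cycleFree_U0 : CycleFree (xstep p M s μ U0) ((0, false), 0) := by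
  refine cycleFree_of U0 fun y w hne hl hflat =>
    no_cycle U0 (fun _ => False) (fun _ => True) trivial (fun _ _ h _ => h.elim)
      (fun _ _ h _ => h.elim) (fun f a h => ?_) y w hne hl hflat
  exact Bool.noConfusion h

theorem cycleFree_U1 : CycleFree (xstep p M s μ (U1 μ)) ((0, false), 0) := by
  refine cycleFree_of (U1 μ) fun y w hne hl hflat =>
    no_cycle (U1 μ) (fun a => a ≠ μ) (fun y => y.2 = false) rfl (fun y a ha hy => ?_)
      (fun y a ha hy => ?_) (fun f a h => ?_) y w hne hl hflat
  · unfold ystep eflag
    split_ifs <;> simp_all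
  · unfold U1 eflag
    split_ifs <;> simp_all
  · unfold U1 at h
    simp_all

theorem cycleFree_U2 : CycleFree (xstep p M s μ (U2 μ)) ((0, false), 0) := by
  refine cycleFree_of (U2 μ) fun y w hne hl hflat =>
    no_cycle (U2 μ) (fun a => a = μ) (fun y => y.1 = 0 ∨ y.2 = true) (Or.inl rfl)
      (fun y a ha hy => ?_) (fun y a ha hy => ?_) (fun f a h => ?_) y w hne hl hflat
  · unfold ystep eflag
    split_ifs <;> simp_all
  · unfold U2 eflag
    split_ifs <;> simp_all
  · unfold U2 at h
    simp_all

theorem cycleFree_U3 (hμ : s μ = 0) : CycleFree (xstep p M s μ (U3 μ)) ((0, false), 0) := by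
  refine cycleFree_of (U3 μ) fun y w hne hl hflat => hl ?_
  have hall : ∀ a ∈ w, a = μ := by
    intro a ha
    obtain ⟨u, v, rfl⟩ := List.append_of_mem ha
    obtain ⟨i, -, -, h⟩ := completion (U3 μ) y _ u v a rfl hl hflat 0
    unfold U3 at h
    simp_all
  clear hflat hl hne
  induction w with
  | nil => rfl
  | cons a w ih =>
    rw [List.map_cons, List.sum_cons, hall a (by simp), hμ, zero_add]
    exact ih fun b hb => hall b (List.mem_cons_of_mem _ hb)

end Vale.Agent.Lib.P329
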