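import Vale.Agent.Lib.P329.Block
import Vale.Agent.Lib.P329.AltFour

namespace Vale.Agent.Lib.P329

open Computability

variable {α : Type} [DecidableEq α]

/-- `cntFrom s μ l cur w`: the number of occurrences of the letter `μ` in `w` that are read at
level `l`, where the level is `cur` at the beginning and each letter `a` adds `s a` to it. -/
def cntFrom {K : Type} [AddMonoid K] [DecidableEq K] (s : α → K) (μ : α) (l : K) : K → List α → ℕ
  | _, [] => 0
  | cur, a :: w => (if a = μ ∧ cur = l then 1 else 0) + cntFrom s μ l (cur + s a) w

/-- translation of the levels -/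
lemma cntFrom_add {K : Type} [AddCommGroup K] [DecidableEq K] (s : α → K) (μ : α) (l cur d : K)
    (w : List α) : cntFrom s μ (l + d) (cur + d) w = cntFrom s μ l cur w := by
  induction w generalizing cur with
  | nil => rfl
  | cons a w ih =>
    simp only [cntFrom]
    have h1 : cur + d + s a = (cur + s a) + d := by abel
    rw [h1, ih (cur + s a)]
    simp only [add_left_inj]

/-- the sum over all levels is the number of occurrences -/
lemma sum_cntFrom {K : Type} [AddCommGroup K] [DecidableEq K] [Fintype K] (s : α → K) (μ : α)
    (cur : K) (w : List α) : ∑ l : K, cntFrom s μ l cur w = w.count μ := by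
  induction w generalizing cur with
  | nil => simp [cntFrom]
  | cons a w ih =>
    simp only [cntFrom]
    rw [Finset.sum_add_distrib, ih (cur + s a), List.count_cons]
    by_cases h : a = μ
    · subst h
      simp [add_comm]
    · simp [h]

/-- with the zero level function, every occurrence is read at level `0` -/
lemma cntFrom_zero {K : Type} [AddMonoid K] [DecidableEq K] (μ : α) (w : List α) :
    cntFrom (fun _ : α => (0 : K)) μ 0 0 w = w.count μ := by
  induction w with
  | nil => rfl
  | cons a w ih =>
    simp only [cntFrom, add_zero]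
    rw [ih, List.count_cons]
    by_cases h : a = μ
    · subst h
      simp [add_comm]
    · simp [h]

variable (p : ℕ) (M : ℕ) (s : α → ZMod p) (μ : α)

/-- the first component of a run does not depend on the counter nor on `U` -/
lemma foldl_xstep_fst (U : Bool → α → Bool) (y : ZMod p × Bool) (x : ZMod M) (w : List α) :
    (w.foldl (xstep p M s μ U) (y, x)).1 = w.foldl (ystep p s μ) y := by
  induction w generalizing y x with
  | nil => rfl
  | cons a w ih =>
    simp only [List.foldl_cons]
    exact ih _ _

/-- Neutral letter: the difference of the two counters is the number of `μ` read at level `0`. -/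
lemma inv_neutral (hμ : s μ = 0) (y : ZMod p × Bool) (x x' : ZMod M) (w : List α) :
    ((w.foldl (xstep p M s μ U0) (y, x)).2 - x) - ((w.foldl (xstep p M s μ (U3 μ)) (y, x')).2 - x')
      = (cntFrom s μ 0 y.1 w : ZMod M) := by
  induction w generalizing y x x' with
  | nil => simp [cntFrom]
  | cons a w ih =>
    simp only [List.foldl_cons, cntFrom]
    have hstep : ∀ (U : Bool → α → Bool) (z : ZMod M), xstep p M s μ U (y, z) a
        = (ystep p s μ y a, if y.1 + s a = 0 ∧ U (eflag p μ y a) a = false then z + 1 else z) :=
      fun _ _ => rfl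
    rw [hstep, hstep]
    have h := ih (ystep p s μ y a)
      (if y.1 + s a = 0 ∧ U0 (eflag p μ y a) a = false then x + 1 else x)
      (if y.1 + s a = 0 ∧ U3 μ (eflag p μ y a) a = false then x' + 1 else x')
    rw [ystep_fst] at h
    have hone : ((if y.1 + s a = 0 ∧ U0 (eflag p μ y a) a = false then x + 1 else x) - x)
        - ((if y.1 + s a = 0 ∧ U3 μ (eflag p μ y a) a = false then x' + 1 else x') - x')
        = ((if a = μ ∧ y.1 = 0 then 1 else 0 : ℕ) : ZMod M) := by
      by_cases ha : a = μ
      · subst ha
        by_cases hy : y.1 = 0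
        · simp [hy, hμ, U0, U3, eflag]
        · simp [hy, hμ, U0, U3, eflag]
      · by_cases hc : y.1 + s a = 0
        · simp [hc, ha, U0, U3]
        · simp [hc, ha, U0, U3]
    push_cast
    push_cast at hone
    rw [← h, ← hone]
    ring

/-- the indicator of: a block beginning with `μ` is in progress -/
def beta (y : ZMod p × Bool) : ZMod M := if y.1 ≠ 0 ∧ y.2 = true then 1 else 0

/-- Shifting letter: (arrivals at level `0` by `μ`) minus (departures from level `0` by `μ`). -/
lemma inv_shift (hμ : s μ ≠ 0) (y : ZMod p × Bool) (x₁ x₂ : ZMod M) (w : List α) :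
    ((w.foldl (xstep p M s μ (U1 μ)) (y, x₁)).2 - (w.foldl (xstep p M s μ (U2 μ)) (y, x₂)).2
        - beta p M (w.foldl (ystep p s μ) y)) - (x₁ - x₂ - beta p M y)
      = (cntFrom s μ (- s μ) y.1 w : ZMod M) - (cntFrom s μ 0 y.1 w : ZMod M) := by
  induction w generalizing y x₁ x₂ with
  | nil => simp [cntFrom]
  | cons a w ih =>
    simp only [List.foldl_cons, cntFrom]
    have hstep : ∀ (U : Bool → α → Bool) (z : ZMod M), xstep p M s μ U (y, z) a
        = (ystep p s μ y a, if y.1 + s a = 0 ∧ U (eflag p μ y a) a = false then z + 1 else z) :=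
      fun _ _ => rfl
    rw [hstep, hstep]
    have h := ih (ystep p s μ y a)
      (if y.1 + s a = 0 ∧ U1 μ (eflag p μ y a) a = false then x₁ + 1 else x₁)
      (if y.1 + s a = 0 ∧ U2 μ (eflag p μ y a) a = false then x₂ + 1 else x₂)
    rw [ystep_fst] at h
    have hone : ((if y.1 + s a = 0 ∧ U1 μ (eflag p μ y a) a = false then x₁ + 1 else x₁)
          - (if y.1 + s a = 0 ∧ U2 μ (eflag p μ y a) a = false then x₂ + 1 else x₂)
          - beta p M (ystep p s μ y a)) - (x₁ - x₂ - beta p M y)
        = ((if a = μ ∧ y.1 = - s μ then 1 else 0 : ℕ) : ZMod M)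
          - ((if a = μ ∧ y.1 = 0 then 1 else 0 : ℕ) : ZMod M) := by
      obtain ⟨y1, y2⟩ := y
      by_cases hc : y1 + s a = 0
      · by_cases hy : y1 = 0
        · have hsa : s a = 0 := by simpa [hy] using hc
          have ha : a ≠ μ := by
            intro h
            rw [h] at hsa
            exact hμ hsa
          simp [hy, hsa, ha, U1, U2, eflag, beta, ystep]
        · by_cases ha : a = μ
          · subst ha
            have hy1 : y1 = - s a := eq_neg_of_add_eq_zero_left hc
            cases y2 <;> simp [hy1, U1, U2, eflag, beta, ystep, hμ]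
          · cases y2
            · simp [hc, hy, ha, U1, U2, eflag, beta, ystep]
            · simp [hc, hy, ha, U1, U2, eflag, beta, ystep]
              ring
      · by_cases hy : y1 = 0
        · by_cases ha : a = μ
          · subst ha
            subst hy
            have h0 : (0 : ZMod p) ≠ - s a := by
              intro h
              exact hμ (neg_eq_zero.mp h.symm)
            simp [U1, U2, eflag, beta, ystep, hμ, h0]
          · subst hy
            have hsa : s a ≠ 0 := by simpa using hc
            simp [hsa, ha, U1, U2, eflag, beta, ystep]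
        · have hy1 : ¬ (a = μ ∧ y1 = - s μ) := by
            rintro ⟨h1, h2⟩
            apply hc
            rw [h1, h2]
            simp
          cases y2 <;> simp [hc, hy, hy1, U1, U2, eflag, beta, ystep]
    push_cast
    push_cast at hone
    linear_combination h + hone

variable [Fact p.Prime]

/-- counting a neutral letter at a given level -/
theorem hasHeight_cnt_neutral [Finite α] (hμ : s μ = 0) (l : ZMod p) (m : ℕ) [NeZero m]
    (r : ZMod m) : HasHeight 1 (langOf fun w : List α => (cntFrom s μ l 0 w : ZMod m) = r) := by
  have : NeZero p := ⟨(Fact.out : p.Prime).ne_zero⟩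
  refine (hasHeight_of_tuple (ι := Bool) (S := (ZMod p × Bool) × ZMod m)
    (fun (b : Bool) (w : List α) =>
      w.foldl (xstep p m s μ (if b then U0 else U3 μ)) ((-l, false), 0))
    (fun b q => ?_) (fun t => (t true).2 - (t false).2 = r)).of_iff fun w => ?_
  · cases b
    · exact hasHeight_run_eq_of_cycleFree (cycleFree_U3 p m s μ hμ) _ _
    · exact hasHeight_run_eq_of_cycleFree (cycleFree_U0 p m s μ) _ _
  · have h1 := inv_neutral p m s μ hμ (-l, false) 0 0 w
    have h2 := cntFrom_add s μ 0 (-l) l w
    rw [zero_add, neg_add_cancel] at h2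
    simp only [sub_zero] at h1
    rw [mem_langOf, mem_langOf, h2, ← h1]
    simp

/-- counting the occurrences of a letter -/
theorem hasHeight_count [Finite α] (m : ℕ) [NeZero m] (r : ZMod m) :
    HasHeight 1 (langOf fun w : List α => (w.count μ : ZMod m) = r) := by
  have h := hasHeight_cnt_neutral 2 (fun _ : α => (0 : ZMod 2)) μ rfl 0 m r
  refine h.of_iff fun w => ?_
  rw [mem_langOf, mem_langOf, cntFrom_zero]

/-- counting a shifting letter at a given level -/
theorem hasHeight_cnt_shift [Finite α] (hμ : s μ ≠ 0) (l : ZMod p) (m : ℕ) [NeZero m]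
    (r : ZMod m) : HasHeight 1 (langOf fun w : List α => (cntFrom s μ l 0 w : ZMod m) = r) := by
  have : NeZero p := ⟨(Fact.out : p.Prime).ne_zero⟩
  have : NeZero (p * m) := ⟨Nat.mul_ne_zero (NeZero.ne p) (NeZero.ne m)⟩
  -- the tuple of runs
  obtain ⟨run, run0, run1, run2⟩ :
      ∃ run : Option (ZMod p × Bool) → List α → (ZMod p × Bool) × ZMod (p * m),
      (∀ w, run none w = ((0, false), (w.count μ : ZMod (p * m)))) ∧
      (∀ b w, run (some (b, true)) w = w.foldl (xstep p (p * m) s μ (U1 μ)) ((-b, false), 0)) ∧
      (∀ b w, run (some (b, false)) w = w.foldl (xstep p (p * m) s μ (U2 μ)) ((-b, false), 0)) :=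
    ⟨fun i w =>
      match i with
      | none => ((0, false), (w.count μ : ZMod (p * m)))
      | some (b, true) => w.foldl (xstep p (p * m) s μ (U1 μ)) ((-b, false), 0)
      | some (b, false) => w.foldl (xstep p (p * m) s μ (U2 μ)) ((-b, false), 0),
      fun _ => rfl, fun _ _ => rfl, fun _ _ => rfl⟩
  have hrun : ∀ i q, HasHeight 1 (langOf fun w : List α => run i w = q) := by
    intro i q
    rcases i with _ | ⟨b, _ | _⟩
    · simp only [run0]
      by_cases hq : q.1 = (0, false)
      · refine (hasHeight_count μ (p * m) q.2).of_iff fun w => ?_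
        rw [mem_langOf, mem_langOf]
        constructor
        · intro h
          exact congrArg Prod.snd h
        · intro h
          exact Prod.ext hq.symm h
      · refine HasHeight.zero.of_iff fun w => ⟨fun h => ?_, fun h => h.elim⟩
        exact (hq (congrArg Prod.fst (mem_langOf.1 h)).symm).elim
    · simp only [run2]
      exact hasHeight_run_eq_of_cycleFree (cycleFree_U2 p (p * m) s μ) _ _
    · simp only [run1]
      exact hasHeight_run_eq_of_cycleFree (cycleFree_U1 p (p * m) s μ) _ _
  -- the differences of the counters are functions of the tuple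
  have hJ : ∀ (b : ZMod p) (w : List α),
      (cntFrom s μ (b - s μ) 0 w : ZMod (p * m)) - (cntFrom s μ b 0 w : ZMod (p * m))
        = (run (some (b, true)) w).2 - (run (some (b, false)) w).2
          - beta p (p * m) (run (some (b, true)) w).1 := by
    intro b w
    have h1 := inv_shift p (p * m) s μ hμ (-b, false) 0 0 w
    have h2 := cntFrom_add s μ 0 (-b) b w
    have h3 := cntFrom_add s μ (- s μ) (-b) b w
    rw [zero_add, neg_add_cancel] at h2
    rw [neg_add_cancel, neg_add_eq_sub] at h3
    have h4 := foldl_xstep_fst p (p * m) s μ (U1 μ) (-b, false) 0 w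
    have h5 : beta p (p * m) ((-b, false) : ZMod p × Bool) = 0 := by simp [beta]
    rw [h2, h3, ← h1, h5, ← h4, run1, run2]
    ring
  -- the tuple determines the counter modulo `m`
  have key : ∀ w w' : List α, (fun i => run i w) = (fun i => run i w') →
      (cntFrom s μ l 0 w : ZMod m) = (cntFrom s μ l 0 w' : ZMod m) := by
    intro w w' hww
    have hi : ∀ i, run i w = run i w' := fun i => congrFun hww i
    set d : ZMod p → ZMod (p * m) := fun b =>
      (cntFrom s μ b 0 w : ZMod (p * m)) - (cntFrom s μ b 0 w' : ZMod (p * m)) with hd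
    have hstep : ∀ b, d (b - s μ) = d b := by
      intro b
      have e1 := hJ b w
      have e2 := hJ b w'
      rw [hi, hi] at e1
      have e3 := e1.trans e2.symm
      simp only [hd]
      linear_combination e3
    have hiter : ∀ (k : ℕ) (b : ZMod p), d (b - k * s μ) = d b := by
      intro k
      induction k with
      | zero => intro b; simp
      | succ k ih =>
        intro b
        have : b - ((k + 1 : ℕ) : ZMod p) * s μ = (b - k * s μ) - s μ := by
          push_cast; ring
        rw [this, hstep, ih]
    have hconst : ∀ b, d b = d l := by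
      intro b
      have h1 := hiter ((l - b) * (s μ)⁻¹).val l
      rw [ZMod.natCast_zmod_val, mul_assoc, inv_mul_cancel₀ hμ, mul_one, sub_sub_cancel] at h1
      exact h1
    have hsum : ∑ b : ZMod p, d b = 0 := by
      simp only [hd, Finset.sum_sub_distrib]
      rw [← Nat.cast_sum, ← Nat.cast_sum, sum_cntFrom, sum_cntFrom]
      have := congrArg Prod.snd (hi none)
      simp only [run0] at this
      rw [this, sub_self]
    rw [Finset.sum_congr rfl (fun b _ => hconst b), Finset.sum_const, Finset.card_univ,
      ZMod.card, nsmul_eq_mul] at hsum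
    simp only [hd] at hsum
    rw [mul_sub, sub_eq_zero, ← Nat.cast_mul, ← Nat.cast_mul,
      ZMod.natCast_eq_natCast_iff] at hsum
    rw [ZMod.natCast_eq_natCast_iff]
    exact Nat.ModEq.mul_left_cancel' (NeZero.ne p) hsum
  refine (hasHeight_of_tuple run hrun
    (fun t => ∃ w' : List α, (fun i => run i w') = t ∧ (cntFrom s μ l 0 w' : ZMod m) = r)).of_iff
    fun w => ?_
  rw [mem_langOf, mem_langOf]
  constructor
  · intro h
    exact ⟨w, rfl, h⟩
  · rintro ⟨w', h1, h2⟩
    rw [← h2]
    exact (key w' w h1).symm

/-- Counting modulo `m` the occurrences of a letter read at a given level modulo a prime `p`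
defines a language of generalized star height at most one. -/
theorem hasHeight_cnt [Finite α] (l : ZMod p) (m : ℕ) [NeZero m] (r : ZMod m) :
    HasHeight 1 (langOf fun w : List α => (cntFrom s μ l 0 w : ZMod m) = r) := by
  by_cases hμ : s μ = 0
  · exact hasHeight_cnt_neutral p s μ hμ l m r
  · exact hasHeight_cnt_shift p s μ hμ l m r

end Vale.Agent.Lib.P329
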