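import Vale.Agent.Lib.P329.GRE

namespace Vale.Agent.Lib.P329

open Computability

variable {α : Type}

/-- `L` is denoted by a generalized regular expression of star height at most `n`. -/
def HasHeight (n : ℕ) (L : Language α) : Prop := ∃ E : GRE α, E.sh ≤ n ∧ E.lang = L

/-- the language of all words satisfying `P` -/
def langOf (P : List α → Prop) : Language α := {w | P w}

@[simp] lemma mem_langOf {P : List α → Prop} {w : List α} : w ∈ langOf P ↔ P w := Iff.rfl

namespace HasHeight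

variable {n : ℕ} {L M : Language α}

lemma mono {m : ℕ} (h : HasHeight n L) (hnm : n ≤ m) : HasHeight m L := by
  obtain ⟨E, hE, rfl⟩ := h
  exact ⟨E, hE.trans hnm, rfl⟩

lemma of_iff (h : HasHeight n L) (hiff : ∀ w, w ∈ M ↔ w ∈ L) : HasHeight n M := by
  have : M = L := Language.ext hiff
  rw [this]; exact h

lemma zero : HasHeight n (0 : Language α) := ⟨GRE.zero, Nat.zero_le _, rfl⟩

lemma one : HasHeight n (1 : Language α) := ⟨GRE.one, Nat.zero_le _, rfl⟩

lemma letter (a : α) : HasHeight n ({[a]} : Language α) := ⟨GRE.letter a, Nat.zero_le _, rfl⟩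

lemma add (hL : HasHeight n L) (hM : HasHeight n M) : HasHeight n (L + M) := by
  obtain ⟨E, hE, rfl⟩ := hL
  obtain ⟨F, hF, rfl⟩ := hM
  exact ⟨GRE.plus E F, max_le hE hF, rfl⟩

lemma mul (hL : HasHeight n L) (hM : HasHeight n M) : HasHeight n (L * M) := by
  obtain ⟨E, hE, rfl⟩ := hL
  obtain ⟨F, hF, rfl⟩ := hM
  exact ⟨GRE.comp E F, max_le hE hF, rfl⟩

lemma compl (hL : HasHeight n L) : HasHeight n Lᶜ := by
  obtain ⟨E, hE, rfl⟩ := hL
  exact ⟨GRE.neg E, hE, rfl⟩

lemma kstar (hL : HasHeight n L) : HasHeight (n + 1) (L∗) := by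
  obtain ⟨E, hE, rfl⟩ := hL
  exact ⟨GRE.star E, Nat.succ_le_succ hE, rfl⟩

lemma top : HasHeight n (⊤ : Language α) := by
  have h : HasHeight n ((0 : Language α)ᶜ) := zero.compl
  refine h.of_iff fun w => ?_
  constructor
  · intro _ h0; exact h0
  · intro _; trivial

lemma inf (hL : HasHeight n L) (hM : HasHeight n M) : HasHeight n (L ⊓ M) := by
  have h : HasHeight n ((Lᶜ + Mᶜ)ᶜ) := (hL.compl.add hM.compl).compl
  refine h.of_iff fun w => ?_
  have h1 : w ∈ (Lᶜ + Mᶜ)ᶜ ↔ ¬ (w ∉ L ∨ w ∉ M) := Iff.rfl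
  have h2 : w ∈ L ⊓ M ↔ w ∈ L ∧ w ∈ M := Iff.rfl
  rw [h1, h2]
  tauto

/-- the empty or full condition -/
lemma of_prop (P : Prop) (hL : HasHeight n L) :
    HasHeight n (langOf fun w => P ∧ w ∈ L) := by
  by_cases hP : P
  · exact hL.of_iff fun w => ⟨fun h => h.2, fun h => ⟨hP, h⟩⟩
  · exact zero.of_iff fun w => ⟨fun h => (hP h.1).elim, fun h => h.elim⟩

lemma finset_union {ι : Type} (s : Finset ι) (f : ι → Language α)
    (h : ∀ i ∈ s, HasHeight n (f i)) : HasHeight n (langOf fun w => ∃ i ∈ s, w ∈ f i) := by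
  classical
  induction s using Finset.induction_on with
  | empty =>
    exact zero.of_iff fun w => ⟨fun ⟨i, hi, _⟩ => by simp at hi, fun h => h.elim⟩
  | insert a s ha ih =>
    have h1 := h a (Finset.mem_insert_self a s)
    have h2 := ih fun i hi => h i (Finset.mem_insert_of_mem hi)
    refine (h1.add h2).of_iff fun w => ?_
    constructor
    · rintro ⟨i, hi, hw⟩
      rcases Finset.mem_insert.mp hi with rfl | hi
      · exact Or.inl hw
      · exact Or.inr ⟨i, hi, hw⟩
    · rintro (hw | ⟨i, hi, hw⟩)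
      · exact ⟨a, Finset.mem_insert_self a s, hw⟩
      · exact ⟨i, Finset.mem_insert_of_mem hi, hw⟩

lemma iUnion {ι : Type} [Finite ι] (f : ι → Language α) (h : ∀ i, HasHeight n (f i)) :
    HasHeight n (langOf fun w => ∃ i, w ∈ f i) := by
  classical
  have := Fintype.ofFinite ι
  refine (finset_union Finset.univ f fun i _ => h i).of_iff fun w => ?_
  constructor
  · rintro ⟨i, hw⟩; exact ⟨i, Finset.mem_univ i, hw⟩
  · rintro ⟨i, _, hw⟩; exact ⟨i, hw⟩

/-- finite union restricted by a predicate -/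
lemma iUnion_of {ι : Type} [Finite ι] (P : ι → Prop) (f : ι → Language α)
    (h : ∀ i, P i → HasHeight n (f i)) :
    HasHeight n (langOf fun w => ∃ i, P i ∧ w ∈ f i) := by
  classical
  refine (iUnion (fun i => (langOf fun w => P i ∧ w ∈ f i)) fun i => ?_).of_iff fun w => Iff.rfl
  by_cases hP : P i
  · exact (h i hP).of_iff fun w => ⟨fun h => h.2, fun h => ⟨hP, h⟩⟩
  · exact zero.of_iff fun w => ⟨fun h => (hP h.1).elim, fun h => h.elim⟩

lemma iInter {ι : Type} [Finite ι] (f : ι → Language α) (h : ∀ i, HasHeight n (f i)) :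
    HasHeight n (langOf fun w => ∀ i, w ∈ f i) := by
  have h1 := (iUnion (fun i => (f i)ᶜ) fun i => (h i).compl).compl
  refine h1.of_iff fun w => ?_
  have h2 : w ∈ (langOf fun w => ∃ i, w ∈ (f i)ᶜ)ᶜ ↔ ¬ ∃ i, w ∉ f i := Iff.rfl
  rw [h2]
  push Not
  exact Iff.rfl

/-- the one-letter words with letter in a given class -/
lemma letters [Finite α] (B : α → Prop) :
    HasHeight n (langOf fun w => ∃ a, B a ∧ w = [a]) :=
  iUnion_of B (fun a => ({[a]} : Language α)) fun a _ => letter a

/-- the words all of whose letters lie in a given class: a star-free language -/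
lemma classStar [Finite α] (B : α → Prop) :
    HasHeight n (langOf fun w => ∀ x ∈ w, B x) := by
  have h1 : HasHeight n
      (((⊤ : Language α) * (langOf fun w => ∃ a, ¬ B a ∧ w = [a])) * (⊤ : Language α))ᶜ :=
    ((top.mul (letters fun a => ¬ B a)).mul top).compl
  refine h1.of_iff fun w => ?_
  constructor
  · intro hw hmem
    obtain ⟨u, hu, v, -, rfl⟩ := Language.mem_mul.mp hmem
    obtain ⟨u1, -, u2, ⟨a, ha, rfl⟩, rfl⟩ := Language.mem_mul.mp hu
    exact ha (hw a (by simp))
  · intro hw x hx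
    by_contra hB
    apply hw
    obtain ⟨s, t, rfl⟩ := List.append_of_mem hx
    refine Language.mem_mul.mpr ⟨s ++ [x], Language.mem_mul.mpr ⟨s, trivial, [x], ⟨x, hB, rfl⟩, rfl⟩,
      t, trivial, by simp⟩

end HasHeight

end Vale.Agent.Lib.P329
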