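import Vale.Agent.Lib.P329.Closure

namespace Vale.Agent.Lib.P329

open Computability

variable {α X : Type}

section Paths

variable (δ : X → α → X) (p : X)

/-- reading `w` from `q` never enters `p` and ends in `q'` -/
def Avoid : X → List α → X → Prop
  | q, [], q' => q = q'
  | q, a :: w, q' => δ q a ≠ p ∧ Avoid (δ q a) w q'

variable (ρ : X → ℕ) (k : ℕ)

/-- one step from `c` by `a` stays off `p` and inside the rank class `k` -/
def Ok (c : X) (a : α) : Prop := δ c a ≠ p ∧ ρ (δ c a) = k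

/-- reading `w` from `q` stays off `p` and inside the rank class `k`, and ends in `q'` -/
def Stay : X → List α → X → Prop
  | q, [], q' => q = q'
  | q, a :: w, q' => Ok δ p ρ k q a ∧ Stay (δ q a) w q'

variable {δ p ρ k}

lemma avoid_append {q c q' : X} {u v : List α} (h1 : Avoid δ p q u c) (h2 : Avoid δ p c v q') :
    Avoid δ p q (u ++ v) q' := by
  induction u generalizing q with
  | nil => cases h1; exact h2
  | cons a u ih => exact ⟨h1.1, ih h1.2⟩

lemma stay_avoid {q q' : X} {w : List α} (h : Stay δ p ρ k q w q') : Avoid δ p q w q' := by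
  induction w generalizing q with
  | nil => exact h
  | cons a w ih => exact ⟨h.1.1, ih h.2⟩

variable (δ p ρ k)

/-- the letter `a` moves some state of the class `k` to the different state `c'` of the class -/
def Moved (a : α) (c' : X) : Prop :=
  ∃ q, q ≠ p ∧ ρ q = k ∧ δ q a = c' ∧ c' ≠ p ∧ ρ c' = k ∧ c' ≠ q

open Classical in
/-- the completed reset action of the letters on the class `k` -/
noncomputable def upd (q : X) (a : α) : X :=
  if h : ∃ c', Moved δ p ρ k a c' then Classical.choose h else q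

/-- `a` acts as a partial identity on the class -/
def IsId (a : α) : Prop := ¬ ∃ c', Moved δ p ρ k a c'

/-- `a` acts as the partial constant `c` on the class -/
def ResetTo (a : α) (c : X) : Prop := ∃ h : ∃ c', Moved δ p ρ k a c', Classical.choose h = c

variable {δ p ρ k}

lemma upd_of_id {a : α} (h : IsId δ p ρ k a) (q : X) : upd δ p ρ k q a = q := by
  unfold upd
  rw [dif_neg h]

lemma upd_of_reset {a : α} {c : X} (h : ResetTo δ p ρ k a c) (q : X) : upd δ p ρ k q a = c := by
  obtain ⟨h1, h2⟩ := h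
  unfold upd
  rw [dif_pos h1, h2]

lemma id_or_reset (a : α) : IsId δ p ρ k a ∨ ∃ c, ResetTo δ p ρ k a c := by
  by_cases h : ∃ c', Moved δ p ρ k a c'
  · exact Or.inr ⟨_, h, rfl⟩
  · exact Or.inl h

lemma not_id_of_reset {a : α} {c : X} (h : ResetTo δ p ρ k a c) : ¬ IsId δ p ρ k a :=
  fun h' => h' h.1

lemma reset_unique {a : α} {c c' : X} (h : ResetTo δ p ρ k a c) (h' : ResetTo δ p ρ k a c') :
    c = c' := by
  obtain ⟨h1, h2⟩ := h
  obtain ⟨h3, h4⟩ := h'
  rw [← h2, ← h4]

/-- hypothesis (2) of the criterion -/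
def ResetHyp (δ : X → α → X) (p : X) (ρ : X → ℕ) : Prop :=
  ∀ a q₁ q₂, q₁ ≠ p → q₂ ≠ p → ρ q₁ = ρ q₂ → δ q₁ a ≠ p → δ q₂ a ≠ p →
    ρ (δ q₁ a) = ρ q₁ → ρ (δ q₂ a) = ρ q₂ → (δ q₁ a = q₁ ∧ δ q₂ a = q₂) ∨ δ q₁ a = δ q₂ a

lemma upd_eq (h2 : ResetHyp δ p ρ) {q : X} {a : α} (hq : q ≠ p) (hk : ρ q = k)
    (hok : Ok δ p ρ k q a) : upd δ p ρ k q a = δ q a := by
  obtain ⟨h1, h1'⟩ := hok
  unfold upd
  split_ifs with h
  · obtain ⟨q₂, hq₂, hk₂, hδ, hc'p, hc'k, hne⟩ := Classical.choose_spec h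
    rcases h2 a q q₂ hq hq₂ (hk.trans hk₂.symm) h1 (by rw [hδ]; exact hc'p) (h1'.trans hk.symm)
      (by rw [hδ]; exact hc'k.trans hk₂.symm) with ⟨-, h3⟩ | h3
    · exact absurd (hδ.symm.trans h3) hne
    · rw [h3, hδ]
  · by_contra hne
    exact h ⟨δ q a, q, hq, hk, rfl, h1, h1', fun h' => hne h'.symm⟩

lemma stay_iff (h2 : ResetHyp δ p ρ) {q q' : X} {w : List α} (hq : q ≠ p) (hk : ρ q = k) :
    Stay δ p ρ k q w q' ↔ (w.foldl (upd δ p ρ k) q = q' ∧
      ∀ u a v, w = u ++ a :: v → Ok δ p ρ k (u.foldl (upd δ p ρ k) q) a) := by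
  induction w generalizing q with
  | nil =>
    constructor
    · intro h
      refine ⟨h, fun u a v hw => ?_⟩
      simp at hw
    · intro h; exact h.1
  | cons b w ih =>
    constructor
    · rintro ⟨hok, hst⟩
      have hu := upd_eq h2 hq hk hok
      obtain ⟨h3, h4⟩ := (ih hok.1 hok.2).mp hst
      refine ⟨by rw [List.foldl_cons, hu]; exact h3, ?_⟩
      intro u a v hw
      cases u with
      | nil =>
        simp only [List.nil_append, List.cons.injEq] at hw
        obtain ⟨rfl, rfl⟩ := hw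
        exact hok
      | cons c u =>
        simp only [List.cons_append, List.cons.injEq] at hw
        obtain ⟨rfl, rfl⟩ := hw
        rw [List.foldl_cons, hu]
        exact h4 u a v rfl
    · rintro ⟨h3, h4⟩
      have hok := h4 [] b w rfl
      simp only [List.foldl_nil] at hok
      have hu := upd_eq h2 hq hk hok
      refine ⟨hok, (ih hok.1 hok.2).mpr ⟨by rw [List.foldl_cons, hu] at h3; exact h3,
        fun u a v hw => ?_⟩⟩
      have h5 := h4 (b :: u) a v (by rw [hw]; rfl)
      rw [List.foldl_cons, hu] at h5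
      exact h5

lemma foldl_upd_eq_iff {q c : X} {u : List α} :
    u.foldl (upd δ p ρ k) q = c ↔ (q = c ∧ ∀ x ∈ u, IsId δ p ρ k x) ∨
      ∃ u₁ a u₂, u = u₁ ++ a :: u₂ ∧ ResetTo δ p ρ k a c ∧ ∀ x ∈ u₂, IsId δ p ρ k x := by
  induction u using List.reverseRecOn with
  | nil =>
    constructor
    · intro h; exact Or.inl ⟨h, by simp⟩
    · rintro (⟨h, -⟩ | ⟨u₁, a, u₂, h, -⟩)
      · exact h
      · simp at h
  | append_singleton u b ih =>
    rw [List.foldl_append, List.foldl_cons, List.foldl_nil]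
    rcases id_or_reset (δ := δ) (p := p) (ρ := ρ) (k := k) b with hb | ⟨cb, hb⟩
    · rw [upd_of_id hb, ih]
      constructor
      · rintro (⟨h, h'⟩ | ⟨u₁, a, u₂, rfl, ha, h'⟩)
        · refine Or.inl ⟨h, fun x hx => ?_⟩
          rcases List.mem_append.mp hx with hx | hx
          · exact h' x hx
          · rw [List.mem_singleton.mp hx]; exact hb
        · refine Or.inr ⟨u₁, a, u₂ ++ [b], by simp, ha, fun x hx => ?_⟩
          rcases List.mem_append.mp hx with hx | hx
          · exact h' x hx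
          · rw [List.mem_singleton.mp hx]; exact hb
      · rintro (⟨h, h'⟩ | ⟨u₁, a, u₂, hu, ha, h'⟩)
        · exact Or.inl ⟨h, fun x hx => h' x (List.mem_append_left _ hx)⟩
        · rcases List.eq_nil_or_concat' u₂ with rfl | ⟨u₃, b', rfl⟩
          · have h3 : u ++ [b] = u₁ ++ [a] := hu
            obtain ⟨-, h4⟩ := List.append_inj' h3 rfl
            simp only [List.cons.injEq, and_true] at h4
            subst h4
            exact absurd hb (not_id_of_reset ha)
          · have h3 : u ++ [b] = (u₁ ++ a :: u₃) ++ [b'] := by rw [hu]; simp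
            obtain ⟨h4, -⟩ := List.append_inj' h3 rfl
            exact Or.inr ⟨u₁, a, u₃, h4, ha, fun x hx => h' x (List.mem_append_left _ hx)⟩
    · rw [upd_of_reset hb]
      constructor
      · rintro rfl
        exact Or.inr ⟨u, b, [], rfl, hb, by simp⟩
      · rintro (⟨-, h'⟩ | ⟨u₁, a, u₂, hu, ha, h'⟩)
        · exact absurd (h' b (by simp)) (not_id_of_reset hb)
        · rcases List.eq_nil_or_concat' u₂ with rfl | ⟨u₃, b', rfl⟩
          · have h3 : u ++ [b] = u₁ ++ [a] := hu
            obtain ⟨-, h4⟩ := List.append_inj' h3 rfl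
            simp only [List.cons.injEq, and_true] at h4
            subst h4
            exact reset_unique hb ha
          · have h3 : u ++ [b] = (u₁ ++ a :: u₃) ++ [b'] := by rw [hu]; simp
            obtain ⟨-, h4⟩ := List.append_inj' h3 rfl
            simp only [List.cons.injEq, and_true] at h4
            subst h4
            exact absurd (h' b (by simp)) (not_id_of_reset hb)

section StarFree

variable [Finite α] [Finite X] {n : ℕ}

lemma hasHeight_vs (q c : X) :
    HasHeight n (langOf fun u : List α => u.foldl (upd δ p ρ k) q = c) := by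
  have h1 : HasHeight n (langOf fun w : List α => q = c ∧
      w ∈ langOf fun w : List α => ∀ x ∈ w, IsId δ p ρ k x) :=
    HasHeight.of_prop _ (HasHeight.classStar _)
  have h2 : HasHeight n (((⊤ : Language α) * (langOf fun w => ∃ a, ResetTo δ p ρ k a c ∧ w = [a])) *
      (langOf fun w : List α => ∀ x ∈ w, IsId δ p ρ k x)) :=
    (HasHeight.top.mul (HasHeight.letters _)).mul (HasHeight.classStar _)
  refine (h1.add h2).of_iff fun w => ?_
  rw [mem_langOf, foldl_upd_eq_iff, Language.mem_add]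
  constructor
  · rintro (h | ⟨u₁, a, u₂, rfl, ha, h'⟩)
    · exact Or.inl h
    · exact Or.inr (Language.mem_mul.mpr ⟨u₁ ++ [a],
        Language.mem_mul.mpr ⟨u₁, trivial, [a], ⟨a, ha, rfl⟩, rfl⟩, u₂, h', by simp⟩)
  · rintro (h | h)
    · exact Or.inl h
    · obtain ⟨x, hx, u₂, h', rfl⟩ := Language.mem_mul.mp h
      obtain ⟨u₁, -, y, ⟨a, ha, rfl⟩, rfl⟩ := Language.mem_mul.mp hx
      exact Or.inr ⟨u₁, a, u₂, by simp, ha, h'⟩

lemma hasHeight_stay (h2 : ResetHyp δ p ρ) {q : X} (hq : q ≠ p) (hk : ρ q = k) (q' : X) :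
    HasHeight n (langOf fun w : List α => Stay δ p ρ k q w q') := by
  have hbad : HasHeight n (langOf fun w : List α => ∃ ca : X × α, ¬ Ok δ p ρ k ca.1 ca.2 ∧
      w ∈ ((langOf fun u : List α => u.foldl (upd δ p ρ k) q = ca.1) * ({[ca.2]} : Language α)) *
        (⊤ : Language α)) :=
    HasHeight.iUnion_of _ _ fun ca _ =>
      ((hasHeight_vs q ca.1).mul (HasHeight.letter ca.2)).mul HasHeight.top
  refine ((hasHeight_vs (δ := δ) (p := p) (ρ := ρ) (k := k) q q').inf hbad.compl).of_iff fun w => ?_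
  rw [mem_langOf, stay_iff h2 hq hk]
  constructor
  · rintro ⟨h3, h4⟩
    refine ⟨h3, ?_⟩
    rintro ⟨⟨c, a⟩, hnok, hmem⟩
    obtain ⟨x, hx, v, -, rfl⟩ := Language.mem_mul.mp hmem
    obtain ⟨u, hu, y, hy, rfl⟩ := Language.mem_mul.mp hx
    have hy' : y = [a] := hy
    subst hy'
    have hu' : u.foldl (upd δ p ρ k) q = c := hu
    apply hnok
    have := h4 u a v (by simp)
    rw [hu'] at this
    exact this
  · rintro ⟨h3, h4⟩
    refine ⟨h3, fun u a v hw => ?_⟩
    by_contra hnok
    apply h4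
    refine ⟨(u.foldl (upd δ p ρ k) q, a), hnok, ?_⟩
    exact Language.mem_mul.mpr ⟨u ++ [a], Language.mem_mul.mpr ⟨u, rfl, [a], rfl, rfl⟩, v, trivial,
      by rw [hw]; simp⟩

end StarFree

/-- hypothesis (1) of the criterion: off `p` the rank never increases -/
def RankHyp (δ : X → α → X) (p : X) (ρ : X → ℕ) : Prop :=
  ∀ q a, q ≠ p → δ q a ≠ p → ρ (δ q a) ≤ ρ q

lemma avoid_iff (h1 : RankHyp δ p ρ) {q q' : X} {w : List α} (hq : q ≠ p) :
    Avoid δ p q w q' ↔ Stay δ p ρ (ρ q) q w q' ∨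
      ∃ u c a v, w = u ++ a :: v ∧ Stay δ p ρ (ρ q) q u c ∧ δ c a ≠ p ∧ ρ (δ c a) < ρ q ∧
        Avoid δ p (δ c a) v q' := by
  constructor
  · intro h
    induction w generalizing q with
    | nil => exact Or.inl h
    | cons b w ih =>
      obtain ⟨hb, hw⟩ := h
      rcases lt_or_eq_of_le (h1 q b hq hb) with hlt | heq
      · exact Or.inr ⟨[], q, b, w, rfl, rfl, hb, hlt, hw⟩
      · rcases ih hb hw with h3 | ⟨u, c, a, v, rfl, h3, h4, h5, h6⟩
        · rw [heq] at h3
          exact Or.inl ⟨⟨hb, heq⟩, h3⟩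
        · rw [heq] at h3 h5
          exact Or.inr ⟨b :: u, c, a, v, rfl, ⟨⟨hb, heq⟩, h3⟩, h4, h5, h6⟩
  · rintro (h | ⟨u, c, a, v, rfl, h3, h4, -, h6⟩)
    · exact stay_avoid h
    · exact avoid_append (stay_avoid h3) ⟨h4, h6⟩

section StarFree2

variable [Finite α] [Finite X] {n : ℕ}

lemma hasHeight_avoid_of_ne (h1 : RankHyp δ p ρ) (h2 : ResetHyp δ p ρ) :
    ∀ (m : ℕ) (q : X), q ≠ p → ρ q = m → ∀ q' : X,
      HasHeight n (langOf fun w : List α => Avoid δ p q w q') := by
  intro m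
  induction m using Nat.strong_induction_on with
  | _ m ih =>
    intro q hq hm q'
    have hA := hasHeight_stay (n := n) (k := ρ q) h2 hq rfl q'
    have hB : HasHeight n (langOf fun w : List α => ∃ ca : X × α,
        (δ ca.1 ca.2 ≠ p ∧ ρ (δ ca.1 ca.2) < ρ q) ∧
        w ∈ ((langOf fun u : List α => Stay δ p ρ (ρ q) q u ca.1) * ({[ca.2]} : Language α)) *
          (langOf fun v : List α => Avoid δ p (δ ca.1 ca.2) v q')) :=
      HasHeight.iUnion_of _ _ fun ca hca =>
        ((hasHeight_stay h2 hq rfl ca.1).mul (HasHeight.letter ca.2)).mul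
          (ih _ (hm ▸ hca.2) _ hca.1 rfl q')
    refine (hA.add hB).of_iff fun w => ?_
    rw [mem_langOf, avoid_iff h1 hq, Language.mem_add]
    constructor
    · rintro (h | ⟨u, c, a, v, rfl, h3, h4, h5, h6⟩)
      · exact Or.inl h
      · exact Or.inr ⟨(c, a), ⟨h4, h5⟩, Language.mem_mul.mpr ⟨u ++ [a],
          Language.mem_mul.mpr ⟨u, h3, [a], rfl, rfl⟩, v, h6, by simp⟩⟩
    · rintro (h | ⟨⟨c, a⟩, ⟨h4, h5⟩, hmem⟩)
      · exact Or.inl h
      · obtain ⟨x, hx, v, h6, rfl⟩ := Language.mem_mul.mp hmem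
        obtain ⟨u, h3, y, hy, rfl⟩ := Language.mem_mul.mp hx
        have hy' : y = [a] := hy
        subst hy'
        exact Or.inr ⟨u, c, a, v, by simp, h3, h4, h5, h6⟩

lemma hasHeight_avoid (h1 : RankHyp δ p ρ) (h2 : ResetHyp δ p ρ) (q q' : X) :
    HasHeight n (langOf fun w : List α => Avoid δ p q w q') := by
  have hA : HasHeight n (langOf fun w : List α => q = q' ∧ w ∈ (1 : Language α)) :=
    HasHeight.of_prop _ HasHeight.one
  have hB : HasHeight n (langOf fun w : List α => ∃ a : α, δ q a ≠ p ∧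
      w ∈ ({[a]} : Language α) * (langOf fun v : List α => Avoid δ p (δ q a) v q')) :=
    HasHeight.iUnion_of _ _ fun a ha =>
      (HasHeight.letter a).mul (hasHeight_avoid_of_ne h1 h2 _ _ ha rfl q')
  refine (hA.add hB).of_iff fun w => ?_
  rw [mem_langOf, Language.mem_add]
  constructor
  · intro h
    cases w with
    | nil => exact Or.inl ⟨h, rfl⟩
    | cons a v => exact Or.inr ⟨a, h.1, Language.mem_mul.mpr ⟨[a], rfl, v, h.2, rfl⟩⟩
  · rintro (⟨h, hw⟩ | ⟨a, ha, hmem⟩)
    · have hw' : w = [] := hw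
      subst hw'
      exact h
    · obtain ⟨y, hy, v, hv, rfl⟩ := Language.mem_mul.mp hmem
      have hy' : y = [a] := hy
      subst hy'
      exact ⟨ha, hv⟩

end StarFree2

variable (δ p)

/-- words that, read from `q`, enter `p` exactly at their last letter -/
def Hit (q : X) : Language α :=
  langOf fun w => ∃ u c a, w = u ++ [a] ∧ Avoid δ p q u c ∧ δ c a = p

variable {δ p}

lemma run_of_avoid {q q' : X} {w : List α} (h : Avoid δ p q w q') : w.foldl δ q = q' := by
  induction w generalizing q with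
  | nil => exact h
  | cons a w ih => exact ih h.2

lemma run_of_hit {q : X} {w : List α} (h : w ∈ Hit δ p q) : w.foldl δ q = p := by
  obtain ⟨u, c, a, rfl, h1, h2⟩ := h
  rw [List.foldl_append, run_of_avoid h1]
  exact h2

lemma run_of_kstar {s : List α} (h : s ∈ (Hit δ p p)∗) : s.foldl δ p = p := by
  obtain ⟨L, rfl, hL⟩ := Language.mem_kstar.mp h
  clear h
  induction L with
  | nil => rfl
  | cons x L ih =>
    rw [List.flatten_cons, List.foldl_append, run_of_hit (hL x (by simp))]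
    exact ih fun y hy => hL y (List.mem_cons_of_mem _ hy)

lemma cons_mem_hit {q : X} {a : α} {h : List α} (hq : δ q a ≠ p) (hh : h ∈ Hit δ p (δ q a)) :
    a :: h ∈ Hit δ p q := by
  obtain ⟨u, c, b, rfl, h1, h2⟩ := hh
  exact ⟨a :: u, c, b, rfl, ⟨hq, h1⟩, h2⟩

lemma run_iff {q₀ q₁ : X} {w : List α} :
    w.foldl δ q₀ = q₁ ↔ Avoid δ p q₀ w q₁ ∨
      w ∈ (Hit δ p q₀ * (Hit δ p p)∗) * (langOf fun v : List α => Avoid δ p p v q₁) := by
  constructor
  · intro h
    induction w generalizing q₀ with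
    | nil => exact Or.inl h
    | cons a w ih =>
      rw [List.foldl_cons] at h
      by_cases hq : δ q₀ a = p
      · have ha : [a] ∈ Hit δ p q₀ := ⟨[], q₀, a, rfl, rfl, hq⟩
        rcases ih h with h3 | h3
        · rw [hq] at h3
          exact Or.inr (Language.mem_mul.mpr ⟨[a] ++ [], Language.mem_mul.mpr
            ⟨[a], ha, [], Language.nil_mem_kstar _, rfl⟩, w, h3, rfl⟩)
        · rw [hq] at h3
          obtain ⟨x, hx, v, hv, rfl⟩ := Language.mem_mul.mp h3
          obtain ⟨y, hy, s, hs, rfl⟩ := Language.mem_mul.mp hx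
          obtain ⟨L, rfl, hL⟩ := Language.mem_kstar.mp hs
          refine Or.inr (Language.mem_mul.mpr ⟨[a] ++ (y ++ L.flatten), Language.mem_mul.mpr
            ⟨[a], ha, y ++ L.flatten, ?_, rfl⟩, v, hv, rfl⟩)
          refine Language.mem_kstar.mpr ⟨y :: L, rfl, fun z hz => ?_⟩
          rcases List.mem_cons.mp hz with rfl | hz
          · exact hy
          · exact hL z hz
      · rcases ih h with h3 | h3
        · exact Or.inl ⟨hq, h3⟩
        · obtain ⟨x, hx, v, hv, rfl⟩ := Language.mem_mul.mp h3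
          obtain ⟨y, hy, s, hs, rfl⟩ := Language.mem_mul.mp hx
          exact Or.inr (Language.mem_mul.mpr ⟨(a :: y) ++ s, Language.mem_mul.mpr
            ⟨a :: y, cons_mem_hit hq hy, s, hs, rfl⟩, v, hv, rfl⟩)
  · rintro (h | h)
    · exact run_of_avoid h
    · obtain ⟨x, hx, v, hv, rfl⟩ := Language.mem_mul.mp h
      obtain ⟨y, hy, s, hs, rfl⟩ := Language.mem_mul.mp hx
      rw [List.foldl_append, List.foldl_append, run_of_hit hy, run_of_kstar hs]
      exact run_of_avoid hv

section Main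

variable [Finite α] [Finite X]

lemma hasHeight_hit {n : ℕ} (h1 : RankHyp δ p ρ) (h2 : ResetHyp δ p ρ) (q : X) :
    HasHeight n (Hit δ p q) := by
  have hB : HasHeight n (langOf fun w : List α => ∃ ca : X × α, δ ca.1 ca.2 = p ∧
      w ∈ (langOf fun u : List α => Avoid δ p q u ca.1) * ({[ca.2]} : Language α)) :=
    HasHeight.iUnion_of _ _ fun ca _ => (hasHeight_avoid h1 h2 q ca.1).mul (HasHeight.letter ca.2)
  refine hB.of_iff fun w => ?_
  constructor
  · rintro ⟨u, c, a, rfl, h3, h4⟩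
    exact ⟨(c, a), h4, Language.mem_mul.mpr ⟨u, h3, [a], rfl, rfl⟩⟩
  · rintro ⟨⟨c, a⟩, h4, hmem⟩
    obtain ⟨u, h3, y, hy, rfl⟩ := Language.mem_mul.mp hmem
    have hy' : y = [a] := hy
    subst hy'
    exact ⟨u, c, a, rfl, h3, h4⟩

/-- The base point criterion, for a single target state. -/
theorem hasHeight_run_eq (h1 : RankHyp δ p ρ) (h2 : ResetHyp δ p ρ) (q₀ q₁ : X) :
    HasHeight 1 (langOf fun w : List α => w.foldl δ q₀ = q₁) := by
  have hA : HasHeight 1 (langOf fun w : List α => Avoid δ p q₀ w q₁) := hasHeight_avoid h1 h2 q₀ q₁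
  have hS : HasHeight 1 ((Hit δ p p)∗) := (hasHeight_hit (n := 0) h1 h2 p).kstar
  have hB := ((hasHeight_hit (n := 1) h1 h2 q₀).mul hS).mul (hasHeight_avoid (n := 1) h1 h2 p q₁)
  refine (hA.add hB).of_iff fun w => ?_
  rw [mem_langOf, run_iff (p := p), Language.mem_add]
  exact Iff.rfl

/-- The base point criterion. -/
theorem hasHeight_run_mem (h1 : RankHyp δ p ρ) (h2 : ResetHyp δ p ρ) (q₀ : X) (F : X → Prop) :
    HasHeight 1 (langOf fun w : List α => F (w.foldl δ q₀)) := by
  refine (HasHeight.iUnion_of F (fun q₁ => langOf fun w : List α => w.foldl δ q₀ = q₁)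
    fun q₁ _ => hasHeight_run_eq h1 h2 q₀ q₁).of_iff fun w => ?_
  constructor
  · intro h; exact ⟨_, h, rfl⟩
  · rintro ⟨q₁, h, hw⟩
    have hw' : w.foldl δ q₀ = q₁ := hw
    rw [mem_langOf, hw']; exact h

end Main

end Paths

end Vale.Agent.Lib.P329
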