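import Mathlib

namespace Vale.Agent.Lib.P329

/-- Generalized regular expressions over the alphabet `α`: built from `0`, `1` and the letters by
union, concatenation, complement and Kleene star. -/
inductive GRE (α : Type) : Type
  | zero : GRE α
  | one : GRE α
  | letter : α → GRE α
  | plus : GRE α → GRE α → GRE α
  | comp : GRE α → GRE α → GRE α
  | neg : GRE α → GRE α
  | star : GRE α → GRE α

namespace GRE

variable {α : Type}

/-- The language denoted by a generalized regular expression; the complement is taken in the set
of all words over `α`. -/
def lang : GRE α → Language α
  | zero => 0
  | one => 1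
  | letter a => {[a]}
  | plus P Q => P.lang + Q.lang
  | comp P Q => P.lang * Q.lang
  | neg P => (P.lang)ᶜ
  | star P => KStar.kstar P.lang

/-- The star height of a generalized regular expression. -/
def sh : GRE α → ℕ
  | zero => 0
  | one => 0
  | letter _ => 0
  | plus P Q => max P.sh Q.sh
  | comp P Q => max P.sh Q.sh
  | neg P => P.sh
  | star P => P.sh + 1

end GRE

end Vale.Agent.Lib.P329
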