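import Vale.Agent.Lib.P329.Radon

namespace Vale.Agent.Lib.P329

open Computability

variable {α G : Type} [Group G]

/-- the vector of the numbers of occurrences modulo `p` -/
def cvec [DecidableEq α] (p : ℕ) (w : List α) : α → ZMod p := fun a => (w.count a : ZMod p)

lemma cvec_nil [DecidableEq α] (p : ℕ) : cvec p ([] : List α) = 0 := by
  funext a
  simp [cvec]

lemma cvec_cons [DecidableEq α] (p : ℕ) (a : α) (w : List α) :
    cvec p (a :: w) = (Pi.single a 1 : α → ZMod p) + cvec p w := by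
  funext b
  by_cases h : a = b
  · subst h
    simp [cvec, add_comm]
  · have h' : b ≠ a := fun e => h e.symm
    simp [cvec, List.count_cons_of_ne h, Pi.single_eq_of_ne h']

lemma cvec_append_singleton [DecidableEq α] (p : ℕ) (a : α) (w : List α) :
    cvec p (w ++ [a]) = cvec p w + (Pi.single a 1 : α → ZMod p) := by
  funext b
  by_cases h : a = b
  · subst h
    simp [cvec]
  · have h' : b ≠ a := fun e => h e.symm
    simp [cvec, List.count_cons_of_ne h, Pi.single_eq_of_ne h']

/-- in a commutative group of exponent `p` the value of a word only depends on the numbers of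
occurrences modulo `p` -/
lemma prod_eq_of_cvec_eq_comm [DecidableEq α] {Q : Type} [CommGroup Q] (p : ℕ)
    (hpow : ∀ x : Q, x ^ p = 1) (ψ : α → Q) {u v : List α} (h : cvec p u = cvec p v) :
    (u.map ψ).prod = (v.map ψ).prod := by
  have key : ∀ w : List α, ∀ s : Finset α, w.toFinset ⊆ s →
      (w.map ψ).prod = ∏ a ∈ s, ψ a ^ (w.count a % p) := by
    intro w s hs
    rw [Finset.prod_list_map_count]
    rw [Finset.prod_subset hs]
    · refine Finset.prod_congr rfl fun a _ => ?_
      exact pow_eq_pow_mod _ (hpow _)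
    · intro a _ ha
      have : w.count a = 0 := List.count_eq_zero.mpr fun hmem => ha (List.mem_toFinset.mpr hmem)
      rw [this, pow_zero]
  rw [key u (u.toFinset ∪ v.toFinset) Finset.subset_union_left,
    key v (u.toFinset ∪ v.toFinset) Finset.subset_union_right]
  refine Finset.prod_congr rfl fun a _ => ?_
  have h1 : (u.count a : ZMod p) = (v.count a : ZMod p) := congrFun h a
  have h2 : u.count a % p = v.count a % p := (ZMod.natCast_eq_natCast_iff _ _ _).mp h1
  rw [h2]

/-- modulo `N` the value of a word only depends on the numbers of occurrences modulo `p` -/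
lemma prod_mem_of_cvec_eq [DecidableEq α] (N : Subgroup G) [N.Normal] (p : ℕ)
    (hpow : ∀ g : G, g ^ p ∈ N) (hcomm : ∀ g h : G, g * h * g⁻¹ * h⁻¹ ∈ N) (φ : α → G)
    {u v : List α} (h : cvec p u = cvec p v) : (u.map φ).prod * ((v.map φ).prod)⁻¹ ∈ N := by
  have hc : ∀ x y : G ⧸ N, x * y = y * x := by
    intro x y
    induction x using QuotientGroup.induction_on with
    | H g =>
      induction y using QuotientGroup.induction_on with
      | H k =>
        have h1 : ((g * k * g⁻¹ * k⁻¹ : G) : G ⧸ N) = 1 :=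
          (QuotientGroup.eq_one_iff _).mpr (hcomm g k)
        have h2 : (g : G ⧸ N) * (k : G ⧸ N) * (g : G ⧸ N)⁻¹ * (k : G ⧸ N)⁻¹ = 1 := by
          simpa using h1
        have h3 : (g : G ⧸ N) * (k : G ⧸ N) * (g : G ⧸ N)⁻¹ = (k : G ⧸ N) :=
          mul_inv_eq_one.mp h2
        exact mul_inv_eq_iff_eq_mul.mp h3
  have hp : ∀ x : G ⧸ N, x ^ p = 1 := by
    intro x
    induction x using QuotientGroup.induction_on with
    | H g =>
      have h1 : ((g ^ p : G) : G ⧸ N) = 1 := (QuotientGroup.eq_one_iff _).mpr (hpow g)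
      simpa using h1
  let _ : CommGroup (G ⧸ N) := { (inferInstance : Group (G ⧸ N)) with mul_comm := hc }
  have h1 := prod_eq_of_cvec_eq_comm (Q := G ⧸ N) p hp (fun a => ((φ a : G) : G ⧸ N)) h
  have h2 : ∀ w : List α, (((w.map φ).prod : G) : G ⧸ N) =
      (w.map fun a => ((φ a : G) : G ⧸ N)).prod := by
    intro w
    induction w with
    | nil => rfl
    | cons a w ih =>
      rw [List.map_cons, List.prod_cons, List.map_cons, List.prod_cons, ← ih]
      rfl
  have h3 : (((u.map φ).prod : G) : G ⧸ N) = (((v.map φ).prod : G) : G ⧸ N) := by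
    rw [h2, h2]; exact h1
  have h4 : ((((u.map φ).prod * ((v.map φ).prod)⁻¹ : G)) : G ⧸ N) = 1 := by
    have : ((((u.map φ).prod * ((v.map φ).prod)⁻¹ : G)) : G ⧸ N) =
      (((u.map φ).prod : G) : G ⧸ N) * (((v.map φ).prod : G) : G ⧸ N)⁻¹ := rfl
    rw [this, h3, mul_inv_cancel]
  exact (QuotientGroup.eq_one_iff _).mp h4

/-- the telescoping identity: the value of a word, read from the level `cur`, is a product of
elements `τ Λ a` of a commutative group, one for each position of the word -/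
lemma telescope [DecidableEq α] [Fintype α] {A : Type} [CommGroup A] (j : A →* G) (p : ℕ)
    [NeZero p] (φ : α → G) (ρ : (α → ZMod p) → G) (τ : (α → ZMod p) → α → A)
    (R : (α → ZMod p) → Prop)
    (hR : ∀ Λ a, R Λ → R (Λ + (Pi.single a 1 : α → ZMod p)))
    (hτ : ∀ Λ a, R Λ → ρ Λ * φ a = j (τ Λ a) * ρ (Λ + (Pi.single a 1 : α → ZMod p)))
    (w : List α) : ∀ cur : α → ZMod p, R cur →
      ρ cur * (w.map φ).prod =
        j (∏ Λ : α → ZMod p, ∏ a : α,
          τ Λ a ^ cntFrom (fun a => (Pi.single a 1 : α → ZMod p)) a Λ cur w) *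
          ρ (cur + cvec p w) := by
  induction w with
  | nil =>
    intro cur _
    simp [cntFrom, cvec_nil]
  | cons b w ih =>
    intro cur hcur
    have h1 := ih (cur + (Pi.single b 1 : α → ZMod p)) (hR cur b hcur)
    rw [List.map_cons, List.prod_cons, ← mul_assoc, hτ cur b hcur, mul_assoc, h1, ← mul_assoc,
      ← map_mul, cvec_cons, ← add_assoc]
    congr 2
    have h2 : ∀ (Λ : α → ZMod p) (a : α),
        τ Λ a ^ cntFrom (fun a => (Pi.single a 1 : α → ZMod p)) a Λ cur (b :: w) =
          (if Λ = cur then (if a = b then τ Λ a else 1) else 1) *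
            τ Λ a ^ cntFrom (fun a => (Pi.single a 1 : α → ZMod p)) a Λ
              (cur + (Pi.single b 1 : α → ZMod p)) w := by
      intro Λ a
      rw [cntFrom, pow_add]
      congr 1
      by_cases hΛ : Λ = cur
      · by_cases ha : a = b
        · subst hΛ; subst ha; simp
        · have ha' : ¬ b = a := fun e => ha e.symm
          simp [ha, ha']
      · have hΛ' : ¬ cur = Λ := fun e => hΛ e.symm
        simp [hΛ, hΛ']
    simp_rw [h2, Finset.prod_mul_distrib]
    congr 1
    rw [Finset.prod_eq_single cur]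
    · rw [Finset.prod_eq_single b]
      · simp
      · intro a _ ha
        simp [ha]
      · intro h; exact (h (Finset.mem_univ _)).elim
    · intro Λ _ hΛ
      simp [hΛ]
    · intro h; exact (h (Finset.mem_univ _)).elim

/-- If all the counters `cntFrom` (modulo the order of `G` times `p`) of two words agree, the two
words have the same value in `G`. -/
lemma prod_eq_of_cnt_eq [DecidableEq α] [Fintype α] [Finite G] (N : Subgroup G) [N.Normal]
    (hN : ∀ a ∈ N, ∀ b ∈ N, a * b = b * a) (p : ℕ) [Fact p.Prime]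
    (hpow : ∀ g : G, g ^ p ∈ N) (hcomm : ∀ g h : G, g * h * g⁻¹ * h⁻¹ ∈ N) (φ : α → G)
    {u v : List α}
    (h : ∀ (μ : α) (Λ : α → ZMod p),
      (cntFrom (fun a => (Pi.single a 1 : α → ZMod p)) μ Λ 0 u : ZMod (Nat.card G * p)) =
        (cntFrom (fun a => (Pi.single a 1 : α → ZMod p)) μ Λ 0 v : ZMod (Nat.card G * p))) :
    (u.map φ).prod = (v.map φ).prod := by
  classical
  have hp0 : NeZero p := ⟨(Fact.out : p.Prime).ne_zero⟩
  let _ : CommGroup N :=
    { (inferInstance : Group N) with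
      mul_comm := fun a b => Subtype.ext (hN a.1 a.2 b.1 b.2) }
  -- congruences
  have hmod : ∀ (μ : α) (Λ : α → ZMod p),
      cntFrom (fun a => (Pi.single a 1 : α → ZMod p)) μ Λ 0 u ≡
        cntFrom (fun a => (Pi.single a 1 : α → ZMod p)) μ Λ 0 v [MOD Nat.card G * p] :=
    fun μ Λ => (ZMod.natCast_eq_natCast_iff _ _ _).mp (h μ Λ)
  have hmodG : ∀ (μ : α) (Λ : α → ZMod p),
      cntFrom (fun a => (Pi.single a 1 : α → ZMod p)) μ Λ 0 u % Nat.card G =
        cntFrom (fun a => (Pi.single a 1 : α → ZMod p)) μ Λ 0 v % Nat.card G :=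
    fun μ Λ => Nat.ModEq.of_mul_right p (hmod μ Λ)
  have hmodp : ∀ (μ : α) (Λ : α → ZMod p),
      (cntFrom (fun a => (Pi.single a 1 : α → ZMod p)) μ Λ 0 u : ZMod p) =
        (cntFrom (fun a => (Pi.single a 1 : α → ZMod p)) μ Λ 0 v : ZMod p) :=
    fun μ Λ => (ZMod.natCast_eq_natCast_iff _ _ _).mpr (Nat.ModEq.of_mul_left _ (hmod μ Λ))
  have hcvec : cvec p u = cvec p v := by
    funext a
    have hu := sum_cntFrom (fun a => (Pi.single a 1 : α → ZMod p)) a 0 u
    have hv := sum_cntFrom (fun a => (Pi.single a 1 : α → ZMod p)) a 0 v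
    simp only [cvec]
    rw [← hu, ← hv, Nat.cast_sum, Nat.cast_sum]
    exact Finset.sum_congr rfl fun Λ _ => hmodp a Λ
  -- the section
  let R : (α → ZMod p) → Prop := fun Λ => ∃ w : List α, cvec p w = Λ
  let ρ : (α → ZMod p) → G := fun Λ => if hΛ : R Λ then (hΛ.choose.map φ).prod else 1
  have hρ : ∀ Λ, R Λ → ∃ w : List α, cvec p w = Λ ∧ ρ Λ = (w.map φ).prod := by
    intro Λ hΛ
    refine ⟨hΛ.choose, hΛ.choose_spec, ?_⟩
    simp only [ρ, dif_pos hΛ]
  have hR : ∀ Λ a, R Λ → R (Λ + (Pi.single a 1 : α → ZMod p)) := by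
    rintro Λ a ⟨w, rfl⟩
    exact ⟨w ++ [a], cvec_append_singleton p a w⟩
  have hmem : ∀ Λ a, R Λ → ρ Λ * φ a * (ρ (Λ + (Pi.single a 1 : α → ZMod p)))⁻¹ ∈ N := by
    intro Λ a hΛ
    obtain ⟨w1, hw1, e1⟩ := hρ Λ hΛ
    obtain ⟨w2, hw2, e2⟩ := hρ _ (hR Λ a hΛ)
    have h3 : cvec p (w1 ++ [a]) = cvec p w2 := by
      rw [cvec_append_singleton, hw1, hw2]
    have h4 := prod_mem_of_cvec_eq N p hpow hcomm φ h3
    rw [e1, e2]
    simpa using h4
  let τ : (α → ZMod p) → α → N := fun Λ a =>
    if hm : ρ Λ * φ a * (ρ (Λ + (Pi.single a 1 : α → ZMod p)))⁻¹ ∈ N then ⟨_, hm⟩ else 1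
  have hτ : ∀ Λ a, R Λ →
      ρ Λ * φ a = N.subtype (τ Λ a) * ρ (Λ + (Pi.single a 1 : α → ZMod p)) := by
    intro Λ a hΛ
    simp only [τ, dif_pos (hmem Λ a hΛ), Subgroup.subtype_apply]
    simp
  have hR0 : R 0 := ⟨[], cvec_nil p⟩
  have hu := telescope N.subtype p φ ρ τ R hR hτ u 0 hR0
  have hv := telescope N.subtype p φ ρ τ R hR hτ v 0 hR0
  have hpowN : ∀ x : N, x ^ Nat.card G = 1 := by
    intro x
    apply Subtype.ext
    simp
  have hprod : (∏ Λ : α → ZMod p, ∏ a : α,
      τ Λ a ^ cntFrom (fun a => (Pi.single a 1 : α → ZMod p)) a Λ 0 u) =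
      ∏ Λ : α → ZMod p, ∏ a : α,
      τ Λ a ^ cntFrom (fun a => (Pi.single a 1 : α → ZMod p)) a Λ 0 v := by
    refine Finset.prod_congr rfl fun Λ _ => Finset.prod_congr rfl fun a _ => ?_
    rw [pow_eq_pow_mod _ (hpowN _), hmodG a Λ, ← pow_eq_pow_mod _ (hpowN _)]
  rw [hprod, hcvec, ← hv] at hu
  exact mul_left_cancel hu

/-- Main theorem: a finite group with an abelian normal subgroup whose quotient is commutative of
prime exponent only recognizes languages of generalized star height at most one. -/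
theorem hasHeight_meta [Finite α] [Finite G] (N : Subgroup G) [N.Normal]
    (hN : ∀ a ∈ N, ∀ b ∈ N, a * b = b * a) (p : ℕ) [Fact p.Prime]
    (hpow : ∀ g : G, g ^ p ∈ N) (hcomm : ∀ g h : G, g * h * g⁻¹ * h⁻¹ ∈ N) (φ : α → G)
    (S : G → Prop) : HasHeight 1 (langOf fun w : List α => S (w.map φ).prod) := by
  classical
  have := Fintype.ofFinite α
  have hp0 : NeZero p := ⟨(Fact.out : p.Prime).ne_zero⟩
  have hne : NeZero (Nat.card G * p) := ⟨Nat.mul_ne_zero Nat.card_pos.ne' hp0.out⟩
  refine (hasHeight_of_tuple (ι := α × (α → ZMod p)) (S := ZMod (Nat.card G * p))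
    (fun i (w : List α) =>
      (cntFrom (fun a => (Pi.single a 1 : α → ZMod p)) i.1 i.2 0 w : ZMod (Nat.card G * p)))
    (fun i r => hasHeight_cnt_vec p i.1 i.2 (Nat.card G * p) r)
    (fun t => ∃ w : List α, (∀ i : α × (α → ZMod p),
      (cntFrom (fun a => (Pi.single a 1 : α → ZMod p)) i.1 i.2 0 w : ZMod (Nat.card G * p)) = t i) ∧
      S (w.map φ).prod)).of_iff fun w => ?_
  constructor
  · intro hw
    exact ⟨w, fun i => rfl, hw⟩
  · rintro ⟨w', hw', hS⟩
    have := prod_eq_of_cnt_eq N hN p hpow hcomm φ (u := w') (v := w) fun μ Λ => hw' (μ, Λ)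
    rw [mem_langOf, ← this]
    exact hS

end Vale.Agent.Lib.P329
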