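import Vale.Agent.Lib.P329.BlockCount

namespace Vale.Agent.Lib.P329

open Computability

variable {α : Type} [DecidableEq α] [Fintype α] (p : ℕ) [Fact p.Prime]


/-- the value of the linear form `κ` at `x` -/
def dotF {p : ℕ} (x κ : α → ZMod p) : ZMod p := ∑ a, κ a * x a

lemma dotF_add (x κ κ' : α → ZMod p) : dotF x (κ + κ') = dotF x κ + dotF x κ' := by
  simp [dotF, add_mul, Finset.sum_add_distrib]

lemma dotF_sub (x κ κ' : α → ZMod p) : dotF x (κ - κ') = dotF x κ - dotF x κ' := by
  simp [dotF, sub_mul, Finset.sum_sub_distrib]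

lemma dotF_single (x : α → ZMod p) (a : α) (c : ZMod p) : dotF x (Pi.single a c) = c * x a := by
  simp [dotF, Pi.single_apply, ite_mul]

/-- splitting off the value of the linear form -/
def dotEquiv (x : α → ZMod p) (a0 : α) (h0 : x a0 ≠ 0) :
    (α → ZMod p) ≃ {κ : α → ZMod p // ∑ a, κ a * x a = 0} × ZMod p where
  toFun κ := (⟨κ - Pi.single a0 (dotF x κ * (x a0)⁻¹), by
    change dotF x _ = 0
    rw [dotF_sub, dotF_single, mul_assoc, inv_mul_cancel₀ h0, mul_one, sub_self]⟩, dotF x κ)
  invFun q := q.1.1 + Pi.single a0 (q.2 * (x a0)⁻¹)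
  left_inv κ := by simp
  right_inv q := by
    obtain ⟨⟨κ, hκ⟩, c⟩ := q
    have h1 : dotF x (κ + Pi.single a0 (c * (x a0)⁻¹)) = c := by
      have hκ' : dotF x κ = 0 := hκ
      rw [dotF_add, dotF_single, hκ', mul_assoc, inv_mul_cancel₀ h0, mul_one, zero_add]
    apply Prod.ext
    · apply Subtype.ext
      simp only [h1]
      simp
    · exact h1

/-- the number of linear forms vanishing at a vector -/
lemma card_dot_eq_zero (x : α → ZMod p) :
    Fintype.card {κ : α → ZMod p // ∑ a, κ a * x a = 0} * p =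
      if x = 0 then p ^ Fintype.card α * p else p ^ Fintype.card α := by
  have hc : Fintype.card (α → ZMod p) = p ^ Fintype.card α := by
    rw [Fintype.card_fun, ZMod.card]
  by_cases hx : x = 0
  · rw [if_pos hx]
    subst hx
    congr 1
    rw [← hc]
    exact Fintype.card_congr (Equiv.subtypeUnivEquiv (fun κ => by simp))
  · rw [if_neg hx]
    obtain ⟨a0, h0⟩ : ∃ a0, x a0 ≠ 0 := by
      by_contra hcon
      exact hx (funext fun a => by
        by_contra ha
        exact hcon ⟨a, ha⟩)
    rw [← hc, Fintype.card_congr (dotEquiv p x a0 h0), Fintype.card_prod, ZMod.card]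


/-- the number of linear forms taking the same value at two vectors -/
lemma sum_ite_dot_eq (Λ₀ cur : α → ZMod p) :
    (∑ κ : α → ZMod p, if (∑ a, κ a * cur a) = (∑ a, κ a * Λ₀ a) then 1 else 0) * p =
      if cur = Λ₀ then p ^ Fintype.card α * p else p ^ Fintype.card α := by
  have h := card_dot_eq_zero p (cur - Λ₀)
  rw [Fintype.card_subtype, Finset.card_filter] at h
  have e : ∀ κ : α → ZMod p, (∑ a, κ a * (cur - Λ₀) a = 0) ↔
      (∑ a, κ a * cur a) = (∑ a, κ a * Λ₀ a) := by
    intro κ
    simp only [Pi.sub_apply, mul_sub, Finset.sum_sub_distrib]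
    exact sub_eq_zero
  simp only [e, sub_eq_zero] at h
  exact h

lemma dot_add_single (κ cur : α → ZMod p) (a : α) :
    (∑ b, κ b * cur b) + κ a = ∑ b, κ b * (cur + (Pi.single a 1 : α → ZMod p)) b := by
  simp [mul_add, Finset.sum_add_distrib, Pi.single_apply]

/-- the level for the level function `κ` is the value of the linear form `κ` at the vector level -/
lemma sum_cntFrom_forms (μ : α) (Λ₀ cur : α → ZMod p) (w : List α) :
    (∑ κ : α → ZMod p, cntFrom (fun a => κ a) μ (∑ a, κ a * Λ₀ a) (∑ a, κ a * cur a) w) * p =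
      p ^ Fintype.card α * w.count μ +
        (p ^ Fintype.card α * p - p ^ Fintype.card α) *
          cntFrom (fun a => (Pi.single a 1 : α → ZMod p)) μ Λ₀ cur w := by
  induction w generalizing cur with
  | nil => simp [cntFrom]
  | cons a w ih =>
    have hp : p ^ Fintype.card α ≤ p ^ Fintype.card α * p :=
      Nat.le_mul_of_pos_right _ (Fact.out : p.Prime).pos
    simp only [cntFrom, Finset.sum_add_distrib, add_mul, dot_add_single]
    rw [ih (cur + Pi.single a 1), List.count_cons]
    by_cases ha : a = μ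
    · subst ha
      have h := sum_ite_dot_eq p Λ₀ cur
      simp only [true_and, beq_self_eq_true, if_true]
      rw [h]
      by_cases hc : cur = Λ₀
      · simp only [hc, if_true]
        zify [hp]
        ring
      · simp only [hc, if_false]
        ring
    · simp [ha]


/-- the scalar counters and the number of occurrences, modulo `n` -/
def radonRun (μ : α) (Λ₀ : α → ZMod p) (n : ℕ) : Option (α → ZMod p) → List α → ZMod n
  | none, w => (w.count μ : ZMod n)
  | some κ, w => (cntFrom (fun a => κ a) μ (∑ a, κ a * Λ₀ a) 0 w : ZMod n)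

/-- the scalar counters modulo `C * m` determine the vector counter modulo `m` -/
lemma cnt_vec_modEq (μ : α) (Λ₀ : α → ZMod p) (m : ℕ) (w w' : List α)
    (h : ∀ i, radonRun p μ Λ₀ ((p ^ Fintype.card α * p - p ^ Fintype.card α) * m) i w
      = radonRun p μ Λ₀ ((p ^ Fintype.card α * p - p ^ Fintype.card α) * m) i w') :
    cntFrom (fun a => (Pi.single a 1 : α → ZMod p)) μ Λ₀ 0 w ≡
      cntFrom (fun a => (Pi.single a 1 : α → ZMod p)) μ Λ₀ 0 w' [MOD m] := by
  set C : ℕ := p ^ Fintype.card α * p - p ^ Fintype.card α with hC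
  have hp : 1 < p := (Fact.out : p.Prime).one_lt
  have hD : 0 < p ^ Fintype.card α := Nat.pow_pos (by omega)
  have hC0 : C ≠ 0 := by
    have : p ^ Fintype.card α * 1 < p ^ Fintype.card α * p := Nat.mul_lt_mul_of_pos_left hp hD
    omega
  have e1 := sum_cntFrom_forms p μ Λ₀ 0 w
  have e2 := sum_cntFrom_forms p μ Λ₀ 0 w'
  simp only [Pi.zero_apply, mul_zero, Finset.sum_const_zero] at e1 e2
  rw [← hC] at e1 e2
  have c1 := congrArg (fun t : ℕ => (t : ZMod (C * m))) e1
  have c2 := congrArg (fun t : ℕ => (t : ZMod (C * m))) e2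
  simp only [Nat.cast_mul, Nat.cast_add, Nat.cast_sum] at c1 c2
  have h0 : ((w.count μ : ℕ) : ZMod (C * m)) = ((w'.count μ : ℕ) : ZMod (C * m)) := h none
  have hk : ∀ κ : α → ZMod p,
      ((cntFrom (fun a => κ a) μ (∑ a, κ a * Λ₀ a) 0 w : ℕ) : ZMod (C * m))
        = ((cntFrom (fun a => κ a) μ (∑ a, κ a * Λ₀ a) 0 w' : ℕ) : ZMod (C * m)) :=
    fun κ => h (some κ)
  rw [Finset.sum_congr rfl (fun κ _ => hk κ), c2, h0] at c1
  have c3 := add_left_cancel c1
  have c4 : ((C * cntFrom (fun a => (Pi.single a 1 : α → ZMod p)) μ Λ₀ 0 w' : ℕ) : ZMod (C * m))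
      = ((C * cntFrom (fun a => (Pi.single a 1 : α → ZMod p)) μ Λ₀ 0 w : ℕ) : ZMod (C * m)) := by
    push_cast
    exact c3
  have c5 := (ZMod.natCast_eq_natCast_iff _ _ _).1 c4
  exact (Nat.ModEq.mul_left_cancel' hC0 c5).symm

/-- Counting modulo `m` the occurrences of a letter read when the vector of the numbers of
occurrences modulo `p` of all the letters in the part already read has a given value. -/
theorem hasHeight_cnt_vec (μ : α) (Λ₀ : α → ZMod p) (m : ℕ) [NeZero m] (r : ZMod m) :
    HasHeight 1 (langOf fun w : List α =>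
      (cntFrom (fun a => (Pi.single a 1 : α → ZMod p)) μ Λ₀ 0 w : ZMod m) = r) := by
  set C : ℕ := p ^ Fintype.card α * p - p ^ Fintype.card α with hC
  have hp : 1 < p := (Fact.out : p.Prime).one_lt
  have hD : 0 < p ^ Fintype.card α := Nat.pow_pos (by omega)
  have hC0 : C ≠ 0 := by
    have : p ^ Fintype.card α * 1 < p ^ Fintype.card α * p := Nat.mul_lt_mul_of_pos_left hp hD
    omega
  have : NeZero (C * m) := ⟨Nat.mul_ne_zero hC0 (NeZero.ne m)⟩
  have hrun : ∀ (i : Option (α → ZMod p)) (t : ZMod (C * m)),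
      HasHeight 1 (langOf fun w : List α => radonRun p μ Λ₀ (C * m) i w = t) := by
    intro i t
    cases i with
    | none => exact hasHeight_count μ (C * m) t
    | some κ => exact hasHeight_cnt p (fun a => κ a) μ (∑ a, κ a * Λ₀ a) (C * m) t
  refine (hasHeight_of_tuple (radonRun p μ Λ₀ (C * m)) hrun
    (fun t => ∃ w' : List α, (∀ i, radonRun p μ Λ₀ (C * m) i w' = t i) ∧
      (cntFrom (fun a => (Pi.single a 1 : α → ZMod p)) μ Λ₀ 0 w' : ZMod m) = r)).of_iff
    fun w => ?_
  rw [mem_langOf, mem_langOf]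
  constructor
  · intro h
    exact ⟨w, fun i => rfl, h⟩
  · rintro ⟨w', h1, h2⟩
    rw [← h2]
    exact (ZMod.natCast_eq_natCast_iff _ _ _).2 (cnt_vec_modEq p μ Λ₀ m w w' (fun i => (h1 i).symm))

end Vale.Agent.Lib.P329
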